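import Vale.Agent.H23.Potts4.CertII3

/-
Kernel check of the polynomial certificate (II), orientation 4.
-/

namespace Vale.Agent.H23.Potts4

open Vale.Agent.H23.Potts

theorem chkII_4 : PE.chkB (PE.subst (sbst 4) II8) 4 76 11 = true := by decide +kernel

end Vale.Agent.H23.Potts4
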