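import Vale.Agent.H17.P154.Q4Cone

/-
Reduction of the symmetrised inequalities to sorted vectors.
-/

namespace Vale.Agent.H23.Potts4

open Vale.Agent.H17.P154

theorem exists_sort4 (a : Fin 4 → ℝ) : ∃ σ : Equiv.Perm (Fin 4),
    a (σ 1) ≤ a (σ 0) ∧ a (σ 2) ≤ a (σ 1) ∧ a (σ 3) ≤ a (σ 2) := by
  have h := Tuple.monotone_sort (fun i => -a i)
  refine ⟨Tuple.sort (fun i => -a i), ?_, ?_, ?_⟩
  · have := h (show (0 : Fin 4) ≤ 1 by decide)
    simp only [Function.comp] at this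
    linarith
  · have := h (show (1 : Fin 4) ≤ 2 by decide)
    simp only [Function.comp] at this
    linarith
  · have := h (show (2 : Fin 4) ≤ 3 by decide)
    simp only [Function.comp] at this
    linarith

theorem meanq_perm (σ : Equiv.Perm (Fin 4)) (x : Fin 4 → ℝ) :
    meanq 4 (fun i => x (σ i)) = meanq 4 x := by
  unfold meanq
  rw [Equiv.sum_comp σ x]

theorem persq_perm {F : (Fin 4 → ℝ) → ℝ}
    (hF : ∀ (σ : Equiv.Perm (Fin 4)) (w : Fin 4 → ℝ), w 0 + w 1 + w 2 + w 3 = 0 →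
      F (fun i => w (σ i)) = F w) (σ : Equiv.Perm (Fin 4)) {x : Fin 4 → ℝ}
    (hx : meanq 4 x ≠ 0) :
    persq 4 F (fun i => x (σ i)) = persq 4 F x := by
  unfold persq
  rw [meanq_perm]
  congr 1
  refine hF σ (fun i => x i / meanq 4 x - 1) ?_
  have h : x 0 + x 1 + x 2 + x 3 = 4 * meanq 4 x := by
    unfold meanq
    rw [Fin.sum_univ_four]
    push_cast
    ring
  have e : x 0 / meanq 4 x - 1 + (x 1 / meanq 4 x - 1) + (x 2 / meanq 4 x - 1) +
      (x 3 / meanq 4 x - 1) = (x 0 + x 1 + x 2 + x 3) / meanq 4 x - 4 := by ring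
  rw [e, h, mul_div_cancel_right₀ _ hx]
  ring

theorem meanq_pos4 {x : Fin 4 → ℝ} (hx : ∀ i, 0 < x i) : 0 < meanq 4 x := by
  unfold meanq
  rw [Fin.sum_univ_four]
  have := hx 0; have := hx 1; have := hx 2; have := hx 3
  positivity

theorem sum_perm_sort {F : (Fin 4 → ℝ) → ℝ}
    (hF : ∀ (σ : Equiv.Perm (Fin 4)) (w : Fin 4 → ℝ), w 0 + w 1 + w 2 + w 3 = 0 →
      F (fun i => w (σ i)) = F w) {a b : Fin 4 → ℝ} (ha : ∀ i, 0 < a i) (hb : ∀ i, 0 < b i)
    (σ τ : Equiv.Perm (Fin 4)) :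
    ∑ π : Equiv.Perm (Fin 4), persq 4 F (fun i => a (σ i) * b (τ (π i))) =
      ∑ π : Equiv.Perm (Fin 4), persq 4 F (fun i => a i * b (π i)) := by
  rw [← Equiv.sum_comp ((Equiv.mulLeft τ).trans (Equiv.mulRight σ⁻¹))
    (fun π : Equiv.Perm (Fin 4) => persq 4 F (fun i => a i * b (π i)))]
  refine Finset.sum_congr rfl fun π _ => ?_
  simp only [Equiv.trans_apply, Equiv.coe_mulLeft, Equiv.coe_mulRight]
  have h1 : meanq 4 (fun i => a i * b ((τ * π * σ⁻¹) i)) ≠ 0 :=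
    (meanq_pos4 fun i => mul_pos (ha i) (hb _)).ne'
  have h := persq_perm hF σ h1
  rw [← h]
  congr 1
  funext i
  simp [Equiv.Perm.mul_apply]

theorem fm_sub_one (a : Fin 4 → ℝ) : fm1 (fun i => a i - 1) = fm1 a ∧
    fm2 (fun i => a i - 1) = fm2 a ∧ fm3 (fun i => a i - 1) = fm3 a := by
  refine ⟨?_, ?_, ?_⟩
  · unfold fm1; ring
  · unfold fm2; ring
  · unfold fm3; ring

theorem sum_of_mean {a : Fin 4 → ℝ} (ma : meanq 4 a = 1) : a 0 + a 1 + a 2 + a 3 = 4 := by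
  unfold meanq at ma
  rw [Fin.sum_univ_four] at ma
  push_cast at ma
  linarith

end Vale.Agent.H23.Potts4
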