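import Vale.Agent.H23.Potts4.IISorted
import Vale.Agent.H23.Potts4.Sort4

/-
The subadditivity inequality (II) for four states, final form.
-/

namespace Vale.Agent.H23.Potts4

open Vale.Agent.H23.Potts Vale.Agent.H17.P154

theorem vals {a : Fin 4 → ℝ} (hs : a 0 + a 1 + a 2 + a 3 = 4) :
    rS (fm1 a) (fm2 a) (fm3 a) / 3 = S4 (fun i => a i - 1) ∧
    rT (fm1 a) (fm2 a) (fm3 a) = T4 (fun i => a i - 1) ∧
    rR (fm1 a) (fm2 a) (fm3 a) / 3 = R4 (fun i => a i - 1) := by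
  obtain ⟨h1, h2, h3⟩ := fm_sub_one a
  refine ⟨?_, ?_, ?_⟩
  · rw [S4_eq (w := fun i => a i - 1) (by linarith), h1, h2, h3]
    unfold rS
    ring
  · unfold T4
    rw [h1, h2, h3]
    unfold rT
    ring
  · unfold R4
    rw [h1, h2, h3]
    unfold rR
    ring

theorem hII_br (a b : Fin 4 → ℝ) (ha : ∀ i, 0 < a i) (hb : ∀ i, 0 < b i) (ma : meanq 4 a = 1)
    (mb : meanq 4 b = 1) :
    ∑ π : Equiv.Perm (Fin 4), persq 4 S4 (fun i => a i * b (π i)) ≤
      24 * br (S4 (fun i => a i - 1)) (T4 (fun i => a i - 1)) (R4 (fun i => a i - 1))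
        (S4 (fun i => b i - 1)) (T4 (fun i => b i - 1)) (R4 (fun i => b i - 1)) := by
  obtain ⟨σ, s1, s2, s3⟩ := exists_sort4 a
  obtain ⟨τ, t1, t2, t3⟩ := exists_sort4 b
  have hsa := sum_of_mean ma
  have hsb := sum_of_mean mb
  have hsa' : a (σ 0) + a (σ 1) + a (σ 2) + a (σ 3) = 4 :=
    sum_of_mean (a := fun i => a (σ i)) (by rw [meanq_perm]; exact ma)
  have hsb' : b (τ 0) + b (τ 1) + b (τ 2) + b (τ 3) = 4 :=
    sum_of_mean (a := fun i => b (τ i)) (by rw [meanq_perm]; exact mb)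
  have hA := Srt_of_sorted (a := fun i => a (σ i)) (fun i => ha (σ i)) hsa' s1 s2 s3
  have hB := Srt_of_sorted (a := fun i => b (τ i)) (fun i => hb (τ i)) hsb' t1 t2 t3
  have key := II_sorted (a := fun i => a (σ i)) (b := fun i => b (τ i)) (fun i => ha (σ i))
    (fun i => hb (τ i)) hsa' hsb' hA hB
  rw [sum_perm_sort (fun σ w _ => S4_perm σ w) ha hb σ τ] at key
  obtain ⟨u1, u2, u3⟩ := vals (a := fun i => a (σ i)) hsa'
  obtain ⟨v1, v2, v3⟩ := vals (a := fun i => b (τ i)) hsb'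
  rw [u1, u2, u3, v1, v2, v3] at key
  have za : (fun i => a i - 1) 0 + (fun i => a i - 1) 1 + (fun i => a i - 1) 2 +
      (fun i => a i - 1) 3 = 0 := by
    change a 0 - 1 + (a 1 - 1) + (a 2 - 1) + (a 3 - 1) = 0
    linarith
  have zb : (fun i => b i - 1) 0 + (fun i => b i - 1) 1 + (fun i => b i - 1) 2 +
      (fun i => b i - 1) 3 = 0 := by
    change b 0 - 1 + (b 1 - 1) + (b 2 - 1) + (b 3 - 1) = 0
    linarith
  have e1 : S4 (fun i => a (σ i) - 1) = S4 (fun i => a i - 1) := S4_perm σ (fun i => a i - 1)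
  have e2 : T4 (fun i => a (σ i) - 1) = T4 (fun i => a i - 1) :=
    T4_perm σ (w := fun i => a i - 1) za
  have e3 : R4 (fun i => a (σ i) - 1) = R4 (fun i => a i - 1) :=
    R4_perm σ (w := fun i => a i - 1) za
  have e4 : S4 (fun i => b (τ i) - 1) = S4 (fun i => b i - 1) := S4_perm τ (fun i => b i - 1)
  have e5 : T4 (fun i => b (τ i) - 1) = T4 (fun i => b i - 1) :=
    T4_perm τ (w := fun i => b i - 1) zb
  have e6 : R4 (fun i => b (τ i) - 1) = R4 (fun i => b i - 1) :=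
    R4_perm τ (w := fun i => b i - 1) zb
  rw [e1, e2, e3, e4, e5, e6] at key
  exact key

end Vale.Agent.H23.Potts4
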