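import Vale.Agent.H23.Potts4.IReal
import Vale.Agent.H23.Potts4.IIFinal
import Vale.Agent.H23.Potts4.CertI0
import Vale.Agent.H23.Potts4.CertI1
import Vale.Agent.H23.Potts4.CertI2
import Vale.Agent.H23.Potts4.CertI3
import Vale.Agent.H23.Potts4.CertI4
import Vale.Agent.H23.Potts4.CertI5
import Vale.Agent.H17.P154.Ferro4

/-
The invariance inequality (I) for four states.
-/

namespace Vale.Agent.H23.Potts4

open Vale.Agent.H23.Potts Vale.Agent.H17.P154

/-- the minorant of the perspective of `gam4` -/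
def Minorant : Prop :=
  ∀ z : Fin 4 → ℝ, (∀ i, 0 < z i) → meanq 4 z ≤ 4 →
    rm (meanq 4 z) (rS (fm1 z) (fm2 z) (fm3 z)) (rT (fm1 z) (fm2 z) (fm3 z))
      (rR (fm1 z) (fm2 z) (fm3 z)) ≤ persq 4 gam4 z

theorem pers_lb (hM : Minorant) {F4 : Fin 4 → ℝ} {a : Fin 4 → ℝ} (ha : ∀ i, 0 < a i)
    (hsa : a 0 + a 1 + a 2 + a 3 = 4) {c0 c1 c2 c3 : ℝ} (h0 : 0 < c0) (h1 : 0 < c1) (h2 : 0 < c2)
    (h3 : 0 < c3) {C1 C2 C3 : ℝ} (hF : F4 = ![a 0 * c0, a 1 * c1, a 2 * c2, a 3 * c3])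
    (hs : c0 + c1 + c2 + c3 = 4) (e1 : C1 = (c0 + c1 - c2 - c3) / 4)
    (e2 : C2 = (c0 - c1 + c2 - c3) / 4) (e3 : C3 = (c0 - c1 - c2 + c3) / 4) :
    pm (fm1 a) (fm2 a) (fm3 a) C1 C2 C3 ≤ persq 4 gam4 F4 ∧
      0 < rZ (fm1 a) (fm2 a) (fm3 a) C1 C2 C3 := by
  subst hF
  have a0 := ha 0; have a1 := ha 1; have a2 := ha 2; have a3 := ha 3
  have hmean : meanq 4 ![a 0 * c0, a 1 * c1, a 2 * c2, a 3 * c3] =
      (a 0 * c0 + a 1 * c1 + a 2 * c2 + a 3 * c3) / 4 := by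
    rw [mean4]
    rfl
  have hpos : 0 < (a 0 * c0 + a 1 * c1 + a 2 * c2 + a 3 * c3) / 4 := by
    positivity
  have hle : (a 0 * c0 + a 1 * c1 + a 2 * c2 + a 3 * c3) / 4 ≤ 4 := by
    have := mul_le_mul_of_nonneg_right (show a 0 ≤ 4 by linarith) h0.le
    have := mul_le_mul_of_nonneg_right (show a 1 ≤ 4 by linarith) h1.le
    have := mul_le_mul_of_nonneg_right (show a 2 ≤ 4 by linarith) h2.le
    have := mul_le_mul_of_nonneg_right (show a 3 ≤ 4 by linarith) h3.le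
    linarith
  have hZ : rZ (fm1 a) (fm2 a) (fm3 a) C1 C2 C3 =
      (a 0 * c0 + a 1 * c1 + a 2 * c2 + a 3 * c3) / 4 := by
    unfold rZ fm1 fm2 fm3
    rw [e1, e2, e3]
    have ea : a 3 = 4 - a 0 - a 1 - a 2 := by linarith
    have ec : c3 = 4 - c0 - c1 - c2 := by linarith
    rw [ea, ec]
    ring
  refine ⟨?_, by rw [hZ]; exact hpos⟩
  have f1 : fm1 ![a 0 * c0, a 1 * c1, a 2 * c2, a 3 * c3] =
      rw1 (fm1 a) (fm2 a) (fm3 a) C1 C2 C3 := by
    change (a 0 * c0 + a 1 * c1 - a 2 * c2 - a 3 * c3) / 4 = _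
    rw [e1, e2, e3]
    unfold rw1 fm1 fm2 fm3
    have ea : a 3 = 4 - a 0 - a 1 - a 2 := by linarith
    have ec : c3 = 4 - c0 - c1 - c2 := by linarith
    rw [ea, ec]
    ring
  have f2 : fm2 ![a 0 * c0, a 1 * c1, a 2 * c2, a 3 * c3] =
      rw2 (fm1 a) (fm2 a) (fm3 a) C1 C2 C3 := by
    change (a 0 * c0 - a 1 * c1 + a 2 * c2 - a 3 * c3) / 4 = _
    rw [e1, e2, e3]
    unfold rw2 fm1 fm2 fm3
    have ea : a 3 = 4 - a 0 - a 1 - a 2 := by linarith
    have ec : c3 = 4 - c0 - c1 - c2 := by linarith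
    rw [ea, ec]
    ring
  have f3 : fm3 ![a 0 * c0, a 1 * c1, a 2 * c2, a 3 * c3] =
      rw3 (fm1 a) (fm2 a) (fm3 a) C1 C2 C3 := by
    change (a 0 * c0 - a 1 * c1 - a 2 * c2 + a 3 * c3) / 4 = _
    rw [e1, e2, e3]
    unfold rw3 fm1 fm2 fm3
    have ea : a 3 = 4 - a 0 - a 1 - a 2 := by linarith
    have ec : c3 = 4 - c0 - c1 - c2 := by linarith
    rw [ea, ec]
    ring
  have key := hM ![a 0 * c0, a 1 * c1, a 2 * c2, a 3 * c3] (by
    intro i
    fin_cases i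
    · exact mul_pos a0 h0
    · exact mul_pos a1 h1
    · exact mul_pos a2 h2
    · exact mul_pos a3 h3) (by rw [hmean]; exact hle)
  rw [f1, f2, f3, hmean, ← hZ] at key
  exact key

/-- the orientation bound -/
theorem orientI (o : Fin 6) {A1 A2 A3 B1 B2 B3 : ℝ} (hA : Srt A1 A2 A3) (hB : Srt B1 B2 B3)
    {C1 C2 C3 : ℝ} (h1 : C1 = prm o B1 B2 B3 0) (h2 : C2 = prm o B1 B2 B3 1)
    (h3 : C3 = prm o B1 B2 B3 2)
    (z0 : 0 < rZ A1 A2 A3 C1 C2 C3) (z1 : 0 < rZ A1 A2 A3 C1 (-C2) (-C3))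
    (z2 : 0 < rZ A1 A2 A3 (-C1) C2 (-C3)) (z3 : 0 < rZ A1 A2 A3 (-C1) (-C2) C3) :
    -rBI A1 A2 A3 C1 C2 C3 / 2430000 ≤
      pm A1 A2 A3 C1 C2 C3 + pm A1 A2 A3 C1 (-C2) (-C3) + pm A1 A2 A3 (-C1) C2 (-C3) +
      pm A1 A2 A3 (-C1) (-C2) C3 := by
  subst h1 h2 h3
  refine I8_real ?_ z0 z1 z2 z3
  fin_cases o
  · exact nonneg8 I8 10 10 I8_bideg 0 4 88 11 chkI_0 hA hB
  · exact nonneg8 I8 10 10 I8_bideg 1 4 88 11 chkI_1 hA hB
  · exact nonneg8 I8 10 10 I8_bideg 2 4 88 11 chkI_2 hA hB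
  · exact nonneg8 I8 10 10 I8_bideg 3 4 88 11 chkI_3 hA hB
  · exact nonneg8 I8 10 10 I8_bideg 4 4 88 11 chkI_4 hA hB
  · exact nonneg8 I8 10 10 I8_bideg 5 4 88 11 chkI_5 hA hB

/-- the bracket of (I) -/
noncomputable def brI (s t r s' t' r' : ℝ) : ℝ :=
  (t - 83 / 100 * s ^ 2 - 45 / 100 * r + 52 / 100 * (s * t)) *
      (1 - 624 / 100 * s' + 81 / 100 * t' - 92 / 100 * s' ^ 2 + 2697 / 100 * r' -
        3635 / 100 * (s' * t') + 5608 / 100 * s' ^ 3 + 3622 / 100 * t' ^ 2 -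
        7742 / 100 * (s' * r')) +
    (1 - 624 / 100 * s + 81 / 100 * t - 92 / 100 * s ^ 2 + 2697 / 100 * r -
        3635 / 100 * (s * t) + 5608 / 100 * s ^ 3 + 3622 / 100 * t ^ 2 -
        7742 / 100 * (s * r)) *
      (t' - 83 / 100 * s' ^ 2 - 45 / 100 * r' + 52 / 100 * (s' * t'))

theorem rPI_sum (x y z u v w : ℝ) :
    rPI x y z u v w + rPI x y z u w v + rPI x y z v u w + rPI x y z v w u + rPI x y z w u v +
      rPI x y z w v u = 0 := by
  have ht1 : rS v w u = rS u v w := by unfold rS; ring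
  have ht2 : rS w u v = rS u v w := by unfold rS; ring
  have ht3 : rS u w v = rS u v w := by unfold rS; ring
  have ht4 : rS w v u = rS u v w := by unfold rS; ring
  have ht5 : rS v u w = rS u v w := by unfold rS; ring
  have hT1 : rT v w u = rT u v w := by unfold rT; ring
  have hT2 : rT w u v = rT u v w := by unfold rT; ring
  have hT3 : rT u w v = rT u v w := by unfold rT; ring
  have hT4 : rT w v u = rT u v w := by unfold rT; ring
  have hT5 : rT v u w = rT u v w := by unfold rT; ring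
  have hV1 : rV 27648 (-156294) 346221 v w u = rV 27648 (-156294) 346221 u v w := by
    unfold rV; rw [ht1, hT1]
  have hV2 : rV 27648 (-156294) 346221 w u v = rV 27648 (-156294) 346221 u v w := by
    unfold rV; rw [ht2, hT2]
  have hV3 : rV 27648 (-156294) 346221 u w v = rV 27648 (-156294) 346221 u v w := by
    unfold rV; rw [ht3, hT3]
  have hV4 : rV 27648 (-156294) 346221 w v u = rV 27648 (-156294) 346221 u v w := by
    unfold rV; rw [ht4, hT4]
  have hV5 : rV 27648 (-156294) 346221 v u w = rV 27648 (-156294) 346221 u v w := by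
    unfold rV; rw [ht5, hT5]
  have hu3 : rU u w v = rU u v w := by unfold rU; rw [ht3]
  have hu4 : rU w v u = rU w u v := by unfold rU; rw [ht4, ht2]
  have hu5 : rU v u w = rU v w u := by unfold rU; rw [ht5, ht1]
  have hr1 : rR v w u = rR u v w := by unfold rR; ring
  have hr2 : rR w u v = rR u v w := by unfold rR; ring
  have hr3 : rR u w v = rR u v w := by unfold rR; ring
  have hr4 : rR w v u = rR u v w := by unfold rR; ring
  have hr5 : rR v u w = rR u v w := by unfold rR; ring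
  have hw3 : rW u w v = rW u v w := by unfold rW; rw [hr3]; ring
  have hw4 : rW w v u = rW w u v := by unfold rW; rw [hr4, hr2]; ring
  have hw5 : rW v u w = rW v w u := by unfold rW; rw [hr5, hr1]; ring
  have hU : rU w u v = -rU u v w - rU v w u := by
    unfold rU; rw [ht1, ht2]; unfold rS; ring
  have hW : rW w u v = -rW u v w - rW v w u := by
    unfold rW; rw [hr1, hr2]; unfold rR; ring
  unfold rPI
  rw [ht1, ht2, ht3, ht4, ht5, hT1, hT2, hT3, hT4, hT5, hV1, hV2, hV3, hV4, hV5, hu3, hu4, hu5,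
    hw3, hw4, hw5, hU, hW]
  generalize rV (-105399) 73113 (-1188) x y z + rV 73113 (-116018) 28593 x y z * rS u v w +
      rV (-1188) 28593 756054 x y z * rT u v w = g1
  generalize rV 27648 (-156294) 346221 x y z = g2
  generalize rV 27648 (-156294) 346221 u v w = g3
  generalize rU u v w = p1
  generalize rU v w u = p2
  generalize rW u v w = q1
  generalize rW v w u = q2
  generalize rU x y z = c1
  generalize rU y z x = c2
  generalize rU z x y = c3
  generalize rW x y z = d1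
  generalize rW y z x = d2
  generalize rW z x y = d3
  ring

theorem rBI_sum (x y z u v w : ℝ) :
    rBI x y z u v w + rBI x y z u w v + rBI x y z v u w + rBI x y z v w u + rBI x y z w u v +
      rBI x y z w v u = -58320000 * brI (rS x y z / 3) (rT x y z) (rR x y z / 3)
        (rS u v w / 3) (rT u v w) (rR u v w / 3) := by
  have ht1 : rS v w u = rS u v w := by unfold rS; ring
  have ht2 : rS w u v = rS u v w := by unfold rS; ring
  have ht3 : rS u w v = rS u v w := by unfold rS; ring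
  have ht4 : rS w v u = rS u v w := by unfold rS; ring
  have ht5 : rS v u w = rS u v w := by unfold rS; ring
  have hr1 : rR v w u = rR u v w := by unfold rR; ring
  have hr2 : rR w u v = rR u v w := by unfold rR; ring
  have hr3 : rR u w v = rR u v w := by unfold rR; ring
  have hr4 : rR w v u = rR u v w := by unfold rR; ring
  have hr5 : rR v u w = rR u v w := by unfold rR; ring
  have hT1 : rT v w u = rT u v w := by unfold rT; ring
  have hT2 : rT w u v = rT u v w := by unfold rT; ring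
  have hT3 : rT u w v = rT u v w := by unfold rT; ring
  have hT4 : rT w v u = rT u v w := by unfold rT; ring
  have hT5 : rT v u w = rT u v w := by unfold rT; ring
  have hP := rPI_sum x y z u v w
  have g1 : rG v w u = rG u v w := by unfold rG; rw [ht1, hT1, hr1]
  have g2 : rG w u v = rG u v w := by unfold rG; rw [ht2, hT2, hr2]
  have g3 : rG u w v = rG u v w := by unfold rG; rw [ht3, hT3, hr3]
  have g4 : rG w v u = rG u v w := by unfold rG; rw [ht4, hT4, hr4]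
  have g5 : rG v u w = rG u v w := by unfold rG; rw [ht5, hT5, hr5]
  have k1 : rH v w u = rH u v w := by unfold rH; rw [ht1, hT1, hr1]
  have k2 : rH w u v = rH u v w := by unfold rH; rw [ht2, hT2, hr2]
  have k3 : rH u w v = rH u v w := by unfold rH; rw [ht3, hT3, hr3]
  have k4 : rH w v u = rH u v w := by unfold rH; rw [ht4, hT4, hr4]
  have k5 : rH v u w = rH u v w := by unfold rH; rw [ht5, hT5, hr5]
  have e : rBI x y z u v w + rBI x y z u w v + rBI x y z v u w + rBI x y z v w u +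
      rBI x y z w u v + rBI x y z w v u =
      6 * (-4 * (rG x y z * rH u v w + rH x y z * rG u v w)) +
      -12 * (rPI x y z u v w + rPI x y z u w v + rPI x y z v u w + rPI x y z v w u +
        rPI x y z w u v + rPI x y z w v u) := by
    unfold rBI
    rw [g1, g2, g3, g4, g5, k1, k2, k3, k4, k5]
    ring
  rw [e, hP]
  unfold rG rH brI
  ring

theorem four_termsI (hM : Minorant) {a : Fin 4 → ℝ} (ha : ∀ i, 0 < a i)
    (hsa : a 0 + a 1 + a 2 + a 3 = 4) {c0 c1 c2 c3 : ℝ} (h0 : 0 < c0) (h1 : 0 < c1) (h2 : 0 < c2)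
    (h3 : 0 < c3) {C1 C2 C3 : ℝ} (hs : c0 + c1 + c2 + c3 = 4) (e1 : C1 = (c0 + c1 - c2 - c3) / 4)
    (e2 : C2 = (c0 - c1 + c2 - c3) / 4) (e3 : C3 = (c0 - c1 - c2 + c3) / 4) (o : Fin 6)
    {B1 B2 B3 : ℝ} (hA : Srt (fm1 a) (fm2 a) (fm3 a)) (hB : Srt B1 B2 B3)
    (p1 : C1 = prm o B1 B2 B3 0) (p2 : C2 = prm o B1 B2 B3 1) (p3 : C3 = prm o B1 B2 B3 2) :
    -rBI (fm1 a) (fm2 a) (fm3 a) C1 C2 C3 / 2430000 ≤
    persq 4 gam4 ![a 0 * c0, a 1 * c1, a 2 * c2, a 3 * c3] +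
      persq 4 gam4 ![a 0 * c1, a 1 * c0, a 2 * c3, a 3 * c2] +
      persq 4 gam4 ![a 0 * c2, a 1 * c3, a 2 * c0, a 3 * c1] +
      persq 4 gam4 ![a 0 * c3, a 1 * c2, a 2 * c1, a 3 * c0] := by
  obtain ⟨t0, z0⟩ := pers_lb hM (F4 := ![a 0 * c0, a 1 * c1, a 2 * c2, a 3 * c3]) ha hsa
    h0 h1 h2 h3 (C1 := C1) (C2 := C2) (C3 := C3) rfl hs e1 e2 e3
  obtain ⟨t1, z1⟩ := pers_lb hM (F4 := ![a 0 * c1, a 1 * c0, a 2 * c3, a 3 * c2]) ha hsa
    h1 h0 h3 h2 (C1 := C1) (C2 := -C2) (C3 := -C3) rfl (by linarith) (by linarith)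
    (by linarith) (by linarith)
  obtain ⟨t2, z2⟩ := pers_lb hM (F4 := ![a 0 * c2, a 1 * c3, a 2 * c0, a 3 * c1]) ha hsa
    h2 h3 h0 h1 (C1 := -C1) (C2 := C2) (C3 := -C3) rfl (by linarith) (by linarith)
    (by linarith) (by linarith)
  obtain ⟨t3, z3⟩ := pers_lb hM (F4 := ![a 0 * c3, a 1 * c2, a 2 * c1, a 3 * c0]) ha hsa
    h3 h2 h1 h0 (C1 := -C1) (C2 := -C2) (C3 := C3) rfl (by linarith) (by linarith)
    (by linarith) (by linarith)
  have ho := orientI o hA hB p1 p2 p3 z0 z1 z2 z3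
  linarith

/-- (I) for sorted vectors -/
theorem I_sorted (hM : Minorant) {a b : Fin 4 → ℝ} (ha : ∀ i, 0 < a i) (hb : ∀ i, 0 < b i)
    (hsa : a 0 + a 1 + a 2 + a 3 = 4) (hsb : b 0 + b 1 + b 2 + b 3 = 4)
    (hA : Srt (fm1 a) (fm2 a) (fm3 a)) (hB : Srt (fm1 b) (fm2 b) (fm3 b)) :
    24 * brI (rS (fm1 a) (fm2 a) (fm3 a) / 3) (rT (fm1 a) (fm2 a) (fm3 a))
        (rR (fm1 a) (fm2 a) (fm3 a) / 3) (rS (fm1 b) (fm2 b) (fm3 b) / 3)
        (rT (fm1 b) (fm2 b) (fm3 b)) (rR (fm1 b) (fm2 b) (fm3 b) / 3) ≤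
      ∑ π : Equiv.Perm (Fin 4), persq 4 gam4 (fun i => a i * b (π i)) := by
  rw [sum_perm4 (persq 4 gam4) a b]
  have hsum := rBI_sum (fm1 a) (fm2 a) (fm3 a) (fm1 b) (fm2 b) (fm3 b)
  have o0 := four_termsI hM ha hsa (hb 0) (hb 1) (hb 2) (hb 3)
    (C1 := fm1 b) (C2 := fm2 b) (C3 := fm3 b) (by linarith)
    (by unfold fm1; ring) (by unfold fm2; ring) (by unfold fm3; ring) 0 hA hB
    rfl rfl rfl
  have o1 := four_termsI hM ha hsa (hb 0) (hb 1) (hb 3) (hb 2)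
    (C1 := fm1 b) (C2 := fm3 b) (C3 := fm2 b) (by linarith)
    (by unfold fm1; ring) (by unfold fm3; ring) (by unfold fm2; ring) 1 hA hB
    rfl rfl rfl
  have o2 := four_termsI hM ha hsa (hb 0) (hb 2) (hb 1) (hb 3)
    (C1 := fm2 b) (C2 := fm1 b) (C3 := fm3 b) (by linarith)
    (by unfold fm2; ring) (by unfold fm1; ring) (by unfold fm3; ring) 2 hA hB
    rfl rfl rfl
  have o3 := four_termsI hM ha hsa (hb 0) (hb 2) (hb 3) (hb 1)
    (C1 := fm2 b) (C2 := fm3 b) (C3 := fm1 b) (by linarith)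
    (by unfold fm2; ring) (by unfold fm3; ring) (by unfold fm1; ring) 3 hA hB
    rfl rfl rfl
  have o4 := four_termsI hM ha hsa (hb 0) (hb 3) (hb 1) (hb 2)
    (C1 := fm3 b) (C2 := fm1 b) (C3 := fm2 b) (by linarith)
    (by unfold fm3; ring) (by unfold fm1; ring) (by unfold fm2; ring) 4 hA hB
    rfl rfl rfl
  have o5 := four_termsI hM ha hsa (hb 0) (hb 3) (hb 2) (hb 1)
    (C1 := fm3 b) (C2 := fm2 b) (C3 := fm1 b) (by linarith)
    (by unfold fm3; ring) (by unfold fm2; ring) (by unfold fm1; ring) 5 hA hB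
    rfl rfl rfl
  linarith

theorem gam4_perm (σ : Equiv.Perm (Fin 4)) (w : Fin 4 → ℝ) (h : w 0 + w 1 + w 2 + w 3 = 0) :
    gam4 (fun i => w (σ i)) = gam4 w := by
  unfold gam4
  rw [S4_perm, T4_perm σ h, R4_perm σ h]

theorem ineq4I_of (hM : Minorant) : Ineq4I := by
  intro a b ha hb ma mb
  obtain ⟨σ, s1, s2, s3⟩ := exists_sort4 a
  obtain ⟨τ, t1, t2, t3⟩ := exists_sort4 b
  have hsa := sum_of_mean ma
  have hsb := sum_of_mean mb
  have hsa' : a (σ 0) + a (σ 1) + a (σ 2) + a (σ 3) = 4 :=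
    sum_of_mean (a := fun i => a (σ i)) (by rw [meanq_perm]; exact ma)
  have hsb' : b (τ 0) + b (τ 1) + b (τ 2) + b (τ 3) = 4 :=
    sum_of_mean (a := fun i => b (τ i)) (by rw [meanq_perm]; exact mb)
  have hA := Srt_of_sorted (a := fun i => a (σ i)) (fun i => ha (σ i)) hsa' s1 s2 s3
  have hB := Srt_of_sorted (a := fun i => b (τ i)) (fun i => hb (τ i)) hsb' t1 t2 t3
  have key := I_sorted hM (a := fun i => a (σ i)) (b := fun i => b (τ i)) (fun i => ha (σ i))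
    (fun i => hb (τ i)) hsa' hsb' hA hB
  rw [sum_perm_sort gam4_perm ha hb σ τ] at key
  obtain ⟨u1, u2, u3⟩ := vals (a := fun i => a (σ i)) hsa'
  obtain ⟨v1, v2, v3⟩ := vals (a := fun i => b (τ i)) hsb'
  rw [u1, u2, u3, v1, v2, v3] at key
  have za : (fun i => a i - 1) 0 + (fun i => a i - 1) 1 + (fun i => a i - 1) 2 +
      (fun i => a i - 1) 3 = 0 := by
    change a 0 - 1 + (a 1 - 1) + (a 2 - 1) + (a 3 - 1) = 0
    linarith
  have zb : (fun i => b i - 1) 0 + (fun i => b i - 1) 1 + (fun i => b i - 1) 2 +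
      (fun i => b i - 1) 3 = 0 := by
    change b 0 - 1 + (b 1 - 1) + (b 2 - 1) + (b 3 - 1) = 0
    linarith
  have e1 : S4 (fun i => a (σ i) - 1) = S4 (fun i => a i - 1) := S4_perm σ (fun i => a i - 1)
  have e2 : T4 (fun i => a (σ i) - 1) = T4 (fun i => a i - 1) :=
    T4_perm σ (w := fun i => a i - 1) za
  have e3 : R4 (fun i => a (σ i) - 1) = R4 (fun i => a i - 1) :=
    R4_perm σ (w := fun i => a i - 1) za
  have e4 : S4 (fun i => b (τ i) - 1) = S4 (fun i => b i - 1) := S4_perm τ (fun i => b i - 1)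
  have e5 : T4 (fun i => b (τ i) - 1) = T4 (fun i => b i - 1) :=
    T4_perm τ (w := fun i => b i - 1) zb
  have e6 : R4 (fun i => b (τ i) - 1) = R4 (fun i => b i - 1) :=
    R4_perm τ (w := fun i => b i - 1) zb
  rw [e1, e2, e3, e4, e5, e6] at key
  refine le_trans (le_of_eq ?_) key
  unfold brI gam4 h4
  ring

end Vale.Agent.H23.Potts4
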