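import Vale.Agent.H23.Potts4.PolyII
import Vale.Agent.H17.P154.Q4Fun

/-
The inequality (II) for four states in Fourier coordinates, from the polynomial certificate.
-/

namespace Vale.Agent.H23.Potts4

open Vale.Agent.H23.Potts

/-- the data of a sorted positive vector of mean one, in Fourier coordinates -/
structure Srt (a1 a2 a3 : ℝ) : Prop where
  ex : ∃ t P Q R : ℝ, 0 < t ∧ 0 ≤ P ∧ 0 ≤ Q ∧ 0 ≤ R ∧ a1 = t * (P + (Q + R)) ∧ a2 = t * (P + R) ∧
    a3 = t * (P + -R) ∧ 1 = t * (P + 1 + (Q + 3 * R))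

/-- the values of the linear forms -/
theorem evR_l1 (v : Fin 6 → ℝ) (p q r : PE 6) :
    PE.evR v (l1 p q r) = PE.evR v p + (PE.evR v q + PE.evR v r) := rfl
theorem evR_l2 (v : Fin 6 → ℝ) (p r : PE 6) :
    PE.evR v (l2 p r) = PE.evR v p + PE.evR v r := rfl
theorem evR_l3 (v : Fin 6 → ℝ) (p r : PE 6) :
    PE.evR v (l3 p r) = PE.evR v p + -PE.evR v r := rfl
theorem evR_l0 (v : Fin 6 → ℝ) (p q r : PE 6) :
    PE.evR v (l0 p q r) = PE.evR v p + 1 + (PE.evR v q + 3 * PE.evR v r) := by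
  simp [l0, zm, PE.evR]

/-- permuted Fourier coordinates -/
def prm (o : Fin 6) (c1 c2 c3 : ℝ) : Fin 3 → ℝ :=
  match o with
  | 0 => ![c1, c2, c3]
  | 1 => ![c1, c3, c2]
  | 2 => ![c2, c1, c3]
  | 3 => ![c2, c3, c1]
  | 4 => ![c3, c1, c2]
  | 5 => ![c3, c2, c1]

theorem nonneg8 (e : PE 8) (i j : ℕ) (he : PE.bideg kind8 e = some (i, j)) (o : Fin 6) (f b n : ℕ)
    (h : PE.chkB (PE.subst (sbst o) e) f b n = true) {a1 a2 a3 b1 b2 b3 : ℝ}
    (ha : Srt a1 a2 a3) (hb : Srt b1 b2 b3) :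
    0 ≤ PE.evR ![a1, a2, a3, 1, prm o b1 b2 b3 0, prm o b1 b2 b3 1, prm o b1 b2 b3 2, 1] e := by
  obtain ⟨t, P, Q, R, ht, hP, hQ, hR, h1, h2, h3, h0⟩ := ha.ex
  obtain ⟨t', P', Q', R', ht', hP', hQ', hR', h1', h2', h3', h0'⟩ := hb.ex
  have key := PE.nonneg_of_chkB _ f b n h ![P, Q, R, P', Q', R'] (by
    intro m
    fin_cases m
    · exact hP
    · exact hQ
    · exact hR
    · exact hP'
    · exact hQ'
    · exact hR')
  rw [PE.evR_subst] at key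
  have hsc := PE.evR_scale kind8 t t' (fun m => PE.evR ![P, Q, R, P', Q', R'] (sbst o m)) e i j he
  have hv : (![a1, a2, a3, 1, prm o b1 b2 b3 0, prm o b1 b2 b3 1, prm o b1 b2 b3 2, 1] :
      Fin 8 → ℝ) =
      fun m => (if kind8 m then t else t') * PE.evR ![P, Q, R, P', Q', R'] (sbst o m) := by
    have e1 : PE.evR ![P, Q, R, P', Q', R'] (l1 vP vQ vR) = P + (Q + R) := rfl
    have e2 : PE.evR ![P, Q, R, P', Q', R'] (l2 vP vR) = P + R := rfl
    have e3 : PE.evR ![P, Q, R, P', Q', R'] (l3 vP vR) = P + -R := rfl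
    have e0 : PE.evR ![P, Q, R, P', Q', R'] (l0 vP vQ vR) = P + 1 + (Q + 3 * R) := evR_l0 _ _ _ _
    have e1' : PE.evR ![P, Q, R, P', Q', R'] (l1 wP wQ wR) = P' + (Q' + R') := rfl
    have e2' : PE.evR ![P, Q, R, P', Q', R'] (l2 wP wR) = P' + R' := rfl
    have e3' : PE.evR ![P, Q, R, P', Q', R'] (l3 wP wR) = P' + -R' := rfl
    have e0' : PE.evR ![P, Q, R, P', Q', R'] (l0 wP wQ wR) = P' + 1 + (Q' + 3 * R') :=
      evR_l0 _ _ _ _
    funext m
    fin_cases m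
    · change a1 = t * PE.evR ![P, Q, R, P', Q', R'] (l1 vP vQ vR)
      rw [e1, h1]
    · change a2 = t * PE.evR ![P, Q, R, P', Q', R'] (l2 vP vR)
      rw [e2, h2]
    · change a3 = t * PE.evR ![P, Q, R, P', Q', R'] (l3 vP vR)
      rw [e3, h3]
    · change (1 : ℝ) = t * PE.evR ![P, Q, R, P', Q', R'] (l0 vP vQ vR)
      rw [e0]
      exact h0
    · fin_cases o
      · change b1 = t' * PE.evR ![P, Q, R, P', Q', R'] (l1 wP wQ wR)
        rw [e1', h1']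
      · change b1 = t' * PE.evR ![P, Q, R, P', Q', R'] (l1 wP wQ wR)
        rw [e1', h1']
      · change b2 = t' * PE.evR ![P, Q, R, P', Q', R'] (l2 wP wR)
        rw [e2', h2']
      · change b2 = t' * PE.evR ![P, Q, R, P', Q', R'] (l2 wP wR)
        rw [e2', h2']
      · change b3 = t' * PE.evR ![P, Q, R, P', Q', R'] (l3 wP wR)
        rw [e3', h3']
      · change b3 = t' * PE.evR ![P, Q, R, P', Q', R'] (l3 wP wR)
        rw [e3', h3']
    · fin_cases o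
      · change b2 = t' * PE.evR ![P, Q, R, P', Q', R'] (l2 wP wR)
        rw [e2', h2']
      · change b3 = t' * PE.evR ![P, Q, R, P', Q', R'] (l3 wP wR)
        rw [e3', h3']
      · change b1 = t' * PE.evR ![P, Q, R, P', Q', R'] (l1 wP wQ wR)
        rw [e1', h1']
      · change b3 = t' * PE.evR ![P, Q, R, P', Q', R'] (l3 wP wR)
        rw [e3', h3']
      · change b1 = t' * PE.evR ![P, Q, R, P', Q', R'] (l1 wP wQ wR)
        rw [e1', h1']
      · change b2 = t' * PE.evR ![P, Q, R, P', Q', R'] (l2 wP wR)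
        rw [e2', h2']
    · fin_cases o
      · change b3 = t' * PE.evR ![P, Q, R, P', Q', R'] (l3 wP wR)
        rw [e3', h3']
      · change b2 = t' * PE.evR ![P, Q, R, P', Q', R'] (l2 wP wR)
        rw [e2', h2']
      · change b3 = t' * PE.evR ![P, Q, R, P', Q', R'] (l3 wP wR)
        rw [e3', h3']
      · change b1 = t' * PE.evR ![P, Q, R, P', Q', R'] (l1 wP wQ wR)
        rw [e1', h1']
      · change b2 = t' * PE.evR ![P, Q, R, P', Q', R'] (l2 wP wR)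
        rw [e2', h2']
      · change b1 = t' * PE.evR ![P, Q, R, P', Q', R'] (l1 wP wQ wR)
        rw [e1', h1']
    · change (1 : ℝ) = t' * PE.evR ![P, Q, R, P', Q', R'] (l0 wP wQ wR)
      rw [e0']
      exact h0'
  rw [hv, hsc]
  positivity

/-- real version of `qS` -/
def rS (x y z : ℝ) : ℝ := x * x + (y * y + z * z)
/-- real version of `qT` -/
def rT (x y z : ℝ) : ℝ := x * (y * z)
/-- real version of `qR` -/
def rR (x y z : ℝ) : ℝ := x * x * (y * y) + (x * x + y * y) * (z * z)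
/-- real version of `qU` -/
def rU (x y z : ℝ) : ℝ := 3 * (x * x) + -rS x y z
/-- real version of `qW` -/
def rW (x y z : ℝ) : ℝ := 3 * (y * y * (z * z)) + -rR x y z
/-- real version of `qG` -/
def rG (x y z : ℝ) : ℝ :=
  900 * rT x y z - 83 * rS x y z ^ 2 - 135 * rR x y z + 156 * (rS x y z * rT x y z)
/-- real version of `qK` -/
def rK (x y z : ℝ) : ℝ :=
  1200 * rS x y z - 900 * rT x y z - 299 * rS x y z ^ 2 - 120 * rR x y z +
    105 * (rS x y z * rT x y z) + 276 * rS x y z ^ 3 + 1548 * rT x y z ^ 2 -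
    950 * (rS x y z * rR x y z)
/-- real version of `qV` -/
def rV (c0 c1 c2 : ℤ) (x y z : ℝ) : ℝ := c0 + c1 * rS x y z + c2 * rT x y z
/-- real version of `qP` -/
def rP (x y z u v w : ℝ) : ℝ :=
  (rV (-90000) 29070 20556 x y z + rV 29070 (-15638) (-131313) x y z * rS u v w +
      rV 20556 (-131313) 931806 x y z * rT u v w) *
      (rU x y z * rU u v w + (rU y z x * rU v w u + rU z x y * rU w u v)) +
    rV 333 (-56400) 89838 x y z *
      (rU x y z * rW u v w + (rU y z x * rW v w u + rU z x y * rW w u v)) +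
    rV 333 (-56400) 89838 u v w *
      (rW x y z * rU u v w + (rW y z x * rU v w u + rW z x y * rU w u v)) -
    213039 * (rW x y z * rW u v w + (rW y z x * rW v w u + rW z x y * rW w u v))
/-- real version of `qB` -/
def rB (x y z u v w : ℝ) : ℝ :=
  270000 * (rS x y z + rS u v w) - (rG x y z * rK u v w + rK x y z * rG u v w) -
    150 * (rS x y z * rS u v w * (rS x y z + rS u v w)) + rP x y z u v w
/-- real version of `qZ` -/
def rZ (x y z u v w : ℝ) : ℝ := 1 + x * u + (y * v + z * w)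
/-- real version of `qQ` -/
def rQ (x y z u v w : ℝ) : ℝ :=
  (x + u + (y * w + z * v)) ^ 2 + ((y + v + (x * w + z * u)) ^ 2 + (z + w + (x * v + y * u)) ^ 2)

section
variable {v : Fin 8 → ℝ} {n x y z m a b c : PE 8}

theorem ev_qS : PE.evR v (qS x y z) = rS (PE.evR v x) (PE.evR v y) (PE.evR v z) := rfl
theorem ev_qT : PE.evR v (qT x y z) = rT (PE.evR v x) (PE.evR v y) (PE.evR v z) := rfl
theorem ev_qR : PE.evR v (qR x y z) = rR (PE.evR v x) (PE.evR v y) (PE.evR v z) := rfl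
theorem ev_mul : PE.evR v (PE.mul x y) = PE.evR v x * PE.evR v y := rfl
theorem ev_add : PE.evR v (PE.add x y) = PE.evR v x + PE.evR v y := rfl
theorem ev_neg : PE.evR v (PE.neg x) = -PE.evR v x := rfl
theorem ev_sb : PE.evR v (sb x y) = PE.evR v x - PE.evR v y := by
  rw [sub_eq_add_neg]; rfl
theorem ev_sq : PE.evR v (sq x) = PE.evR v x * PE.evR v x := rfl
theorem ev_zm (t : ℤ) : PE.evR v (zm t x) = (t : ℝ) * PE.evR v x := rfl

theorem ev_qU : PE.evR v (qU x y z) = rU (PE.evR v x) (PE.evR v y) (PE.evR v z) := by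
  simp only [qU, ev_sb, ev_zm, ev_sq, ev_qS, rU]
  push_cast
  ring
theorem ev_qW : PE.evR v (qW x y z) = rW (PE.evR v x) (PE.evR v y) (PE.evR v z) := by
  simp only [qW, ev_sb, ev_zm, ev_sq, ev_mul, ev_qR, rW]
  push_cast
  ring
theorem ev_qG (hn : PE.evR v n = 1) :
    PE.evR v (qG n x y z) = rG (PE.evR v x) (PE.evR v y) (PE.evR v z) := by
  simp only [qG, ev_add, ev_neg, ev_zm, ev_sq, ev_mul, ev_qS, ev_qT, ev_qR, rG, hn]
  push_cast
  ring
theorem ev_qK (hn : PE.evR v n = 1) :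
    PE.evR v (qK n x y z) = rK (PE.evR v x) (PE.evR v y) (PE.evR v z) := by
  simp only [qK, ev_add, ev_neg, ev_zm, ev_sq, ev_mul, ev_qS, ev_qT, ev_qR, rK, hn]
  push_cast
  ring
theorem ev_qV (c0 c1 c2 : ℤ) (hn : PE.evR v n = 1) :
    PE.evR v (qV c0 c1 c2 n x y z) = rV c0 c1 c2 (PE.evR v x) (PE.evR v y) (PE.evR v z) := by
  simp only [qV, ev_add, ev_zm, ev_sq, ev_mul, ev_qS, ev_qT, rV, hn]
  ring
theorem ev_qP (hn : PE.evR v n = 1) (hm : PE.evR v m = 1) :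
    PE.evR v (qP n x y z m a b c) = rP (PE.evR v x) (PE.evR v y) (PE.evR v z)
      (PE.evR v a) (PE.evR v b) (PE.evR v c) := by
  simp only [qP, ev_add, ev_neg, ev_zm, ev_sq, ev_mul, ev_qS, ev_qT, ev_qU, ev_qW,
    ev_qV _ _ _ hn, ev_qV _ _ _ hm, rP, hn, hm]
  push_cast
  ring
theorem ev_qB (hn : PE.evR v n = 1) (hm : PE.evR v m = 1) :
    PE.evR v (qB n x y z m a b c) = rB (PE.evR v x) (PE.evR v y) (PE.evR v z)
      (PE.evR v a) (PE.evR v b) (PE.evR v c) := by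
  simp only [qB, ev_add, ev_sb, ev_zm, ev_sq, ev_mul, ev_qS, ev_qG hn, ev_qK hn, ev_qG hm,
    ev_qK hm, ev_qP hn hm, rB, hn, hm]
  push_cast
  ring
theorem ev_qZ (hn : PE.evR v n = 1) (hm : PE.evR v m = 1) :
    PE.evR v (qZ n x y z m a b c) = rZ (PE.evR v x) (PE.evR v y) (PE.evR v z)
      (PE.evR v a) (PE.evR v b) (PE.evR v c) := by
  simp only [qZ, ev_add, ev_mul, rZ, hn, hm]
  ring
theorem ev_qQ (hn : PE.evR v n = 1) (hm : PE.evR v m = 1) :
    PE.evR v (qQ n x y z m a b c) = rQ (PE.evR v x) (PE.evR v y) (PE.evR v z)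
      (PE.evR v a) (PE.evR v b) (PE.evR v c) := by
  simp only [qQ, ev_add, ev_mul, ev_sq, rQ, hn, hm]
  ring

end

theorem II8_real {a1 a2 a3 b1 b2 b3 : ℝ}
    (h : 0 ≤ PE.evR ![a1, a2, a3, 1, b1, b2, b3, 1] II8)
    (z0 : 0 < rZ a1 a2 a3 b1 b2 b3) (z1 : 0 < rZ a1 a2 a3 b1 (-b2) (-b3))
    (z2 : 0 < rZ a1 a2 a3 (-b1) b2 (-b3)) (z3 : 0 < rZ a1 a2 a3 (-b1) (-b2) b3) :
    rQ a1 a2 a3 b1 b2 b3 / rZ a1 a2 a3 b1 b2 b3 +
      rQ a1 a2 a3 b1 (-b2) (-b3) / rZ a1 a2 a3 b1 (-b2) (-b3) +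
      rQ a1 a2 a3 (-b1) b2 (-b3) / rZ a1 a2 a3 (-b1) b2 (-b3) +
      rQ a1 a2 a3 (-b1) (-b2) b3 / rZ a1 a2 a3 (-b1) (-b2) b3 ≤
      rB a1 a2 a3 b1 b2 b3 / 67500 := by
  have hn : PE.evR ![a1, a2, a3, 1, b1, b2, b3, 1] (PE.var 3) = 1 := rfl
  have hm : PE.evR ![a1, a2, a3, 1, b1, b2, b3, 1] (PE.var 7) = 1 := rfl
  have x1 : PE.evR ![a1, a2, a3, 1, b1, b2, b3, 1] (PE.var 0) = a1 := rfl
  have x2 : PE.evR ![a1, a2, a3, 1, b1, b2, b3, 1] (PE.var 1) = a2 := rfl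
  have x3 : PE.evR ![a1, a2, a3, 1, b1, b2, b3, 1] (PE.var 2) = a3 := rfl
  have y1 : PE.evR ![a1, a2, a3, 1, b1, b2, b3, 1] (PE.var 4) = b1 := rfl
  have y2 : PE.evR ![a1, a2, a3, 1, b1, b2, b3, 1] (PE.var 5) = b2 := rfl
  have y3 : PE.evR ![a1, a2, a3, 1, b1, b2, b3, 1] (PE.var 6) = b3 := rfl
  simp only [II8, qII, ev_sb, ev_mul, ev_add, ev_sq, ev_zm, ev_qB hn hm, ev_qZ hn hm,
    ev_qQ hn hm, ev_neg, x1, x2, x3, y1, y2, y3, hn, hm, mul_one, one_mul] at h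
  generalize rB a1 a2 a3 b1 b2 b3 = B at h ⊢
  generalize rZ a1 a2 a3 b1 b2 b3 = Z0 at h z0 ⊢
  generalize rZ a1 a2 a3 b1 (-b2) (-b3) = Z1 at h z1 ⊢
  generalize rZ a1 a2 a3 (-b1) b2 (-b3) = Z2 at h z2 ⊢
  generalize rZ a1 a2 a3 (-b1) (-b2) b3 = Z3 at h z3 ⊢
  generalize rQ a1 a2 a3 b1 b2 b3 = Q0 at h ⊢
  generalize rQ a1 a2 a3 b1 (-b2) (-b3) = Q1 at h ⊢
  generalize rQ a1 a2 a3 (-b1) b2 (-b3) = Q2 at h ⊢
  generalize rQ a1 a2 a3 (-b1) (-b2) b3 = Q3 at h ⊢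
  have hD : 0 < Z0 * Z1 * (Z2 * Z3) := mul_pos (mul_pos z0 z1) (mul_pos z2 z3)
  have e1 : B / 67500 - (Q0 / Z0 + Q1 / Z1 + Q2 / Z2 + Q3 / Z3) =
      (Z0 * Z1 * (Z2 * Z3) * B - 67500 * (Z0 * Z1 * (Q2 * Z3 + Q3 * Z2) +
        Z2 * Z3 * (Q0 * Z1 + Q1 * Z0))) / (67500 * (Z0 * Z1 * (Z2 * Z3))) := by
    field_simp
    ring
  have e2 : 0 ≤ B / 67500 - (Q0 / Z0 + Q1 / Z1 + Q2 / Z2 + Q3 / Z3) := by
    rw [e1]
    refine div_nonneg ?_ (by positivity)
    push_cast at h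
    linarith
  linarith

end Vale.Agent.H23.Potts4
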