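import Vale.Agent.H23.Potts4.IIReal
import Vale.Agent.H23.Potts4.CertII0
import Vale.Agent.H23.Potts4.CertII1
import Vale.Agent.H23.Potts4.CertII2
import Vale.Agent.H23.Potts4.CertII3
import Vale.Agent.H23.Potts4.CertII4
import Vale.Agent.H23.Potts4.CertII5

/-
The subadditivity inequality (II) for four states.
-/

namespace Vale.Agent.H23.Potts4

open Vale.Agent.H23.Potts Vale.Agent.H17.P154

/-- the merged value in Fourier coordinates -/
noncomputable def WW (x y z u v w : ℝ) : ℝ := rQ x y z u v w / rZ x y z u v w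

theorem mean4 (x : Fin 4 → ℝ) : meanq 4 x = (x 0 + x 1 + x 2 + x 3) / 4 := by
  unfold meanq
  rw [Fin.sum_univ_four]
  norm_num

theorem pers_term {F4 : Fin 4 → ℝ} {a : Fin 4 → ℝ} (ha : ∀ i, 0 < a i)
    (hsa : a 0 + a 1 + a 2 + a 3 = 4) {c0 c1 c2 c3 : ℝ} (h0 : 0 < c0) (h1 : 0 < c1) (h2 : 0 < c2)
    (h3 : 0 < c3) {C1 C2 C3 : ℝ} (hF : F4 = ![a 0 * c0, a 1 * c1, a 2 * c2, a 3 * c3])
    (hs : c0 + c1 + c2 + c3 = 4) (e1 : C1 = (c0 + c1 - c2 - c3) / 4)
    (e2 : C2 = (c0 - c1 + c2 - c3) / 4) (e3 : C3 = (c0 - c1 - c2 + c3) / 4) :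
    persq 4 S4 F4 = WW (fm1 a) (fm2 a) (fm3 a) C1 C2 C3 / 3 ∧
      0 < rZ (fm1 a) (fm2 a) (fm3 a) C1 C2 C3 := by
  subst hF
  have hmean : meanq 4 ![a 0 * c0, a 1 * c1, a 2 * c2, a 3 * c3] =
      (a 0 * c0 + a 1 * c1 + a 2 * c2 + a 3 * c3) / 4 := by
    rw [mean4]
    rfl
  have hpos : 0 < (a 0 * c0 + a 1 * c1 + a 2 * c2 + a 3 * c3) / 4 := by
    have := ha 0; have := ha 1; have := ha 2; have := ha 3
    positivity
  have hZ : rZ (fm1 a) (fm2 a) (fm3 a) C1 C2 C3 =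
      (a 0 * c0 + a 1 * c1 + a 2 * c2 + a 3 * c3) / 4 := by
    unfold rZ fm1 fm2 fm3
    rw [e1, e2, e3]
    have ea : a 3 = 4 - a 0 - a 1 - a 2 := by linarith
    have ec : c3 = 4 - c0 - c1 - c2 := by linarith
    rw [ea, ec]
    ring
  refine ⟨?_, by rw [hZ]; exact hpos⟩
  unfold persq
  rw [hmean]
  set Z := (a 0 * c0 + a 1 * c1 + a 2 * c2 + a 3 * c3) / 4 with hZdef
  have hsum : (fun i => (![a 0 * c0, a 1 * c1, a 2 * c2, a 3 * c3] : Fin 4 → ℝ) i / Z - 1) 0 +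
      (fun i => (![a 0 * c0, a 1 * c1, a 2 * c2, a 3 * c3] : Fin 4 → ℝ) i / Z - 1) 1 +
      (fun i => (![a 0 * c0, a 1 * c1, a 2 * c2, a 3 * c3] : Fin 4 → ℝ) i / Z - 1) 2 +
      (fun i => (![a 0 * c0, a 1 * c1, a 2 * c2, a 3 * c3] : Fin 4 → ℝ) i / Z - 1) 3 = 0 := by
    change a 0 * c0 / Z - 1 + (a 1 * c1 / Z - 1) + (a 2 * c2 / Z - 1) + (a 3 * c3 / Z - 1) = 0
    have h4 : a 0 * c0 + a 1 * c1 + a 2 * c2 + a 3 * c3 = 4 * Z := by rw [hZdef]; ring
    have h5 : a 0 * c0 / Z - 1 + (a 1 * c1 / Z - 1) + (a 2 * c2 / Z - 1) + (a 3 * c3 / Z - 1) =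
        (a 0 * c0 + a 1 * c1 + a 2 * c2 + a 3 * c3) / Z - 4 := by ring
    rw [h5, h4, mul_div_cancel_right₀ _ hpos.ne']
    ring
  rw [S4_eq hsum]
  have f1 : fm1 (fun i => (![a 0 * c0, a 1 * c1, a 2 * c2, a 3 * c3] : Fin 4 → ℝ) i / Z - 1) =
      (fm1 a + C1 + (fm2 a * C3 + fm3 a * C2)) / Z := by
    change (a 0 * c0 / Z - 1 + (a 1 * c1 / Z - 1) - (a 2 * c2 / Z - 1) - (a 3 * c3 / Z - 1)) / 4 = _
    rw [e1, e2, e3]
    unfold fm1 fm2 fm3
    have ea : a 3 = 4 - a 0 - a 1 - a 2 := by linarith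
    have ec : c3 = 4 - c0 - c1 - c2 := by linarith
    rw [ea, ec]
    ring
  have f2 : fm2 (fun i => (![a 0 * c0, a 1 * c1, a 2 * c2, a 3 * c3] : Fin 4 → ℝ) i / Z - 1) =
      (fm2 a + C2 + (fm1 a * C3 + fm3 a * C1)) / Z := by
    change (a 0 * c0 / Z - 1 - (a 1 * c1 / Z - 1) + (a 2 * c2 / Z - 1) - (a 3 * c3 / Z - 1)) / 4 = _
    rw [e1, e2, e3]
    unfold fm1 fm2 fm3
    have ea : a 3 = 4 - a 0 - a 1 - a 2 := by linarith
    have ec : c3 = 4 - c0 - c1 - c2 := by linarith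
    rw [ea, ec]
    ring
  have f3 : fm3 (fun i => (![a 0 * c0, a 1 * c1, a 2 * c2, a 3 * c3] : Fin 4 → ℝ) i / Z - 1) =
      (fm3 a + C3 + (fm1 a * C2 + fm2 a * C1)) / Z := by
    change (a 0 * c0 / Z - 1 - (a 1 * c1 / Z - 1) - (a 2 * c2 / Z - 1) + (a 3 * c3 / Z - 1)) / 4 = _
    rw [e1, e2, e3]
    unfold fm1 fm2 fm3
    have ea : a 3 = 4 - a 0 - a 1 - a 2 := by linarith
    have ec : c3 = 4 - c0 - c1 - c2 := by linarith
    rw [ea, ec]
    ring
  rw [f1, f2, f3]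
  unfold WW
  rw [hZ]
  unfold rQ
  have hZ0 : Z ≠ 0 := hpos.ne'
  field_simp
  ring

/-- the orientation bound -/
theorem orient (o : Fin 6) {A1 A2 A3 B1 B2 B3 : ℝ} (hA : Srt A1 A2 A3) (hB : Srt B1 B2 B3)
    {C1 C2 C3 : ℝ} (h1 : C1 = prm o B1 B2 B3 0) (h2 : C2 = prm o B1 B2 B3 1)
    (h3 : C3 = prm o B1 B2 B3 2)
    (z0 : 0 < rZ A1 A2 A3 C1 C2 C3) (z1 : 0 < rZ A1 A2 A3 C1 (-C2) (-C3))
    (z2 : 0 < rZ A1 A2 A3 (-C1) C2 (-C3)) (z3 : 0 < rZ A1 A2 A3 (-C1) (-C2) C3) :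
    WW A1 A2 A3 C1 C2 C3 + WW A1 A2 A3 C1 (-C2) (-C3) + WW A1 A2 A3 (-C1) C2 (-C3) +
      WW A1 A2 A3 (-C1) (-C2) C3 ≤ rB A1 A2 A3 C1 C2 C3 / 67500 := by
  subst h1 h2 h3
  refine II8_real ?_ z0 z1 z2 z3
  fin_cases o
  · exact nonneg8 II8 10 10 II8_bideg 0 4 76 11 chkII_0 hA hB
  · exact nonneg8 II8 10 10 II8_bideg 1 4 76 11 chkII_1 hA hB
  · exact nonneg8 II8 10 10 II8_bideg 2 4 76 11 chkII_2 hA hB
  · exact nonneg8 II8 10 10 II8_bideg 3 4 76 11 chkII_3 hA hB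
  · exact nonneg8 II8 10 10 II8_bideg 4 4 76 11 chkII_4 hA hB
  · exact nonneg8 II8 10 10 II8_bideg 5 4 76 11 chkII_5 hA hB

theorem Srt_of_sorted {a : Fin 4 → ℝ} (ha : ∀ i, 0 < a i) (hsa : a 0 + a 1 + a 2 + a 3 = 4)
    (h01 : a 1 ≤ a 0) (h12 : a 2 ≤ a 1) (h23 : a 3 ≤ a 2) : Srt (fm1 a) (fm2 a) (fm3 a) := by
  have h3 := ha 3
  refine ⟨a 3, (a 0 - a 1) / (4 * a 3), (a 1 - a 2) / (2 * a 3), (a 2 - a 3) / (4 * a 3), h3,
    div_nonneg (by linarith) (by linarith), div_nonneg (by linarith) (by linarith),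
    div_nonneg (by linarith) (by linarith), ?_, ?_, ?_, ?_⟩
  · unfold fm1
    field_simp
    ring
  · unfold fm2
    field_simp
    ring
  · unfold fm3
    field_simp
    ring
  · have : a 0 = 4 - a 1 - a 2 - a 3 := by linarith
    rw [this]
    field_simp
    ring

/-- the bracket of (II) -/
noncomputable def br (s t r s' t' r' : ℝ) : ℝ :=
  s + s' - ((t - 83 / 100 * s ^ 2 - 45 / 100 * r + 52 / 100 * (s * t)) *
      (4 * s' - t' - 299 / 100 * s' ^ 2 - 40 / 100 * r' + 35 / 100 * (s' * t') +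
        828 / 100 * s' ^ 3 + 172 / 100 * t' ^ 2 - 950 / 100 * (s' * r')) +
    (4 * s - t - 299 / 100 * s ^ 2 - 40 / 100 * r + 35 / 100 * (s * t) +
        828 / 100 * s ^ 3 + 172 / 100 * t ^ 2 - 950 / 100 * (s * r)) *
      (t' - 83 / 100 * s' ^ 2 - 45 / 100 * r' + 52 / 100 * (s' * t'))) -
    1 / 200 * (s * s' * (s + s'))

theorem rP_sum (x y z u v w : ℝ) :
    rP x y z u v w + rP x y z u w v + rP x y z v u w + rP x y z v w u + rP x y z w u v +
      rP x y z w v u = 0 := by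
  have ht1 : rS v w u = rS u v w := by unfold rS; ring
  have ht2 : rS w u v = rS u v w := by unfold rS; ring
  have ht3 : rS u w v = rS u v w := by unfold rS; ring
  have ht4 : rS w v u = rS u v w := by unfold rS; ring
  have ht5 : rS v u w = rS u v w := by unfold rS; ring
  have hT1 : rT v w u = rT u v w := by unfold rT; ring
  have hT2 : rT w u v = rT u v w := by unfold rT; ring
  have hT3 : rT u w v = rT u v w := by unfold rT; ring
  have hT4 : rT w v u = rT u v w := by unfold rT; ring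
  have hT5 : rT v u w = rT u v w := by unfold rT; ring
  have hV1 : rV 333 (-56400) 89838 v w u = rV 333 (-56400) 89838 u v w := by
    unfold rV; rw [ht1, hT1]
  have hV2 : rV 333 (-56400) 89838 w u v = rV 333 (-56400) 89838 u v w := by
    unfold rV; rw [ht2, hT2]
  have hV3 : rV 333 (-56400) 89838 u w v = rV 333 (-56400) 89838 u v w := by
    unfold rV; rw [ht3, hT3]
  have hV4 : rV 333 (-56400) 89838 w v u = rV 333 (-56400) 89838 u v w := by
    unfold rV; rw [ht4, hT4]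
  have hV5 : rV 333 (-56400) 89838 v u w = rV 333 (-56400) 89838 u v w := by
    unfold rV; rw [ht5, hT5]
  have hu3 : rU u w v = rU u v w := by unfold rU; rw [ht3]
  have hu4 : rU w v u = rU w u v := by unfold rU; rw [ht4, ht2]
  have hu5 : rU v u w = rU v w u := by unfold rU; rw [ht5, ht1]
  have hr1 : rR v w u = rR u v w := by unfold rR; ring
  have hr2 : rR w u v = rR u v w := by unfold rR; ring
  have hr3 : rR u w v = rR u v w := by unfold rR; ring
  have hr4 : rR w v u = rR u v w := by unfold rR; ring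
  have hr5 : rR v u w = rR u v w := by unfold rR; ring
  have hw3 : rW u w v = rW u v w := by unfold rW; rw [hr3]; ring
  have hw4 : rW w v u = rW w u v := by unfold rW; rw [hr4, hr2]; ring
  have hw5 : rW v u w = rW v w u := by unfold rW; rw [hr5, hr1]; ring
  have hU : rU w u v = -rU u v w - rU v w u := by
    unfold rU; rw [ht1, ht2]; unfold rS; ring
  have hW : rW w u v = -rW u v w - rW v w u := by
    unfold rW; rw [hr1, hr2]; unfold rR; ring
  unfold rP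
  rw [ht1, ht2, ht3, ht4, ht5, hT1, hT2, hT3, hT4, hT5, hV1, hV2, hV3, hV4, hV5, hu3, hu4, hu5,
    hw3, hw4, hw5, hU, hW]
  generalize rV (-90000) 29070 20556 x y z + rV 29070 (-15638) (-131313) x y z * rS u v w +
      rV 20556 (-131313) 931806 x y z * rT u v w = g1
  generalize rV 333 (-56400) 89838 x y z = g2
  generalize rV 333 (-56400) 89838 u v w = g3
  generalize rU u v w = p1
  generalize rU v w u = p2
  generalize rW u v w = q1
  generalize rW v w u = q2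
  generalize rU x y z = c1
  generalize rU y z x = c2
  generalize rU z x y = c3
  generalize rW x y z = d1
  generalize rW y z x = d2
  generalize rW z x y = d3
  ring

theorem rB_sum (x y z u v w : ℝ) :
    rB x y z u v w + rB x y z u w v + rB x y z v u w + rB x y z v w u + rB x y z w u v +
      rB x y z w v u = 4860000 * br (rS x y z / 3) (rT x y z) (rR x y z / 3)
        (rS u v w / 3) (rT u v w) (rR u v w / 3) := by
  have ht1 : rS v w u = rS u v w := by unfold rS; ring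
  have ht2 : rS w u v = rS u v w := by unfold rS; ring
  have ht3 : rS u w v = rS u v w := by unfold rS; ring
  have ht4 : rS w v u = rS u v w := by unfold rS; ring
  have ht5 : rS v u w = rS u v w := by unfold rS; ring
  have hr1 : rR v w u = rR u v w := by unfold rR; ring
  have hr2 : rR w u v = rR u v w := by unfold rR; ring
  have hr3 : rR u w v = rR u v w := by unfold rR; ring
  have hr4 : rR w v u = rR u v w := by unfold rR; ring
  have hr5 : rR v u w = rR u v w := by unfold rR; ring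
  have hT1 : rT v w u = rT u v w := by unfold rT; ring
  have hT2 : rT w u v = rT u v w := by unfold rT; ring
  have hT3 : rT u w v = rT u v w := by unfold rT; ring
  have hT4 : rT w v u = rT u v w := by unfold rT; ring
  have hT5 : rT v u w = rT u v w := by unfold rT; ring
  have hP := rP_sum x y z u v w
  have g1 : rG v w u = rG u v w := by unfold rG; rw [ht1, hT1, hr1]
  have g2 : rG w u v = rG u v w := by unfold rG; rw [ht2, hT2, hr2]
  have g3 : rG u w v = rG u v w := by unfold rG; rw [ht3, hT3, hr3]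
  have g4 : rG w v u = rG u v w := by unfold rG; rw [ht4, hT4, hr4]
  have g5 : rG v u w = rG u v w := by unfold rG; rw [ht5, hT5, hr5]
  have k1 : rK v w u = rK u v w := by unfold rK; rw [ht1, hT1, hr1]
  have k2 : rK w u v = rK u v w := by unfold rK; rw [ht2, hT2, hr2]
  have k3 : rK u w v = rK u v w := by unfold rK; rw [ht3, hT3, hr3]
  have k4 : rK w v u = rK u v w := by unfold rK; rw [ht4, hT4, hr4]
  have k5 : rK v u w = rK u v w := by unfold rK; rw [ht5, hT5, hr5]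
  have e : rB x y z u v w + rB x y z u w v + rB x y z v u w + rB x y z v w u + rB x y z w u v +
      rB x y z w v u = 6 * (270000 * (rS x y z + rS u v w) -
        (rG x y z * rK u v w + rK x y z * rG u v w) -
        150 * (rS x y z * rS u v w * (rS x y z + rS u v w))) +
      (rP x y z u v w + rP x y z u w v + rP x y z v u w + rP x y z v w u + rP x y z w u v +
        rP x y z w v u) := by
    unfold rB
    rw [g1, g2, g3, g4, g5, k1, k2, k3, k4, k5, ht1, ht2, ht3, ht4, ht5]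
    ring
  rw [e, hP]
  unfold rG rK br
  ring

theorem four_terms {a : Fin 4 → ℝ} (ha : ∀ i, 0 < a i)
    (hsa : a 0 + a 1 + a 2 + a 3 = 4) {c0 c1 c2 c3 : ℝ} (h0 : 0 < c0) (h1 : 0 < c1) (h2 : 0 < c2)
    (h3 : 0 < c3) {C1 C2 C3 : ℝ} (hs : c0 + c1 + c2 + c3 = 4) (e1 : C1 = (c0 + c1 - c2 - c3) / 4)
    (e2 : C2 = (c0 - c1 + c2 - c3) / 4) (e3 : C3 = (c0 - c1 - c2 + c3) / 4) (o : Fin 6)
    {B1 B2 B3 : ℝ} (hA : Srt (fm1 a) (fm2 a) (fm3 a)) (hB : Srt B1 B2 B3)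
    (p1 : C1 = prm o B1 B2 B3 0) (p2 : C2 = prm o B1 B2 B3 1) (p3 : C3 = prm o B1 B2 B3 2) :
    persq 4 S4 ![a 0 * c0, a 1 * c1, a 2 * c2, a 3 * c3] +
      persq 4 S4 ![a 0 * c1, a 1 * c0, a 2 * c3, a 3 * c2] +
      persq 4 S4 ![a 0 * c2, a 1 * c3, a 2 * c0, a 3 * c1] +
      persq 4 S4 ![a 0 * c3, a 1 * c2, a 2 * c1, a 3 * c0] ≤
      rB (fm1 a) (fm2 a) (fm3 a) C1 C2 C3 / 202500 := by
  obtain ⟨t0, z0⟩ := pers_term (F4 := ![a 0 * c0, a 1 * c1, a 2 * c2, a 3 * c3]) ha hsa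
    h0 h1 h2 h3 (C1 := C1) (C2 := C2) (C3 := C3) rfl hs e1 e2 e3
  obtain ⟨t1, z1⟩ := pers_term (F4 := ![a 0 * c1, a 1 * c0, a 2 * c3, a 3 * c2]) ha hsa
    h1 h0 h3 h2 (C1 := C1) (C2 := -C2) (C3 := -C3) rfl (by linarith) (by linarith)
    (by linarith) (by linarith)
  obtain ⟨t2, z2⟩ := pers_term (F4 := ![a 0 * c2, a 1 * c3, a 2 * c0, a 3 * c1]) ha hsa
    h2 h3 h0 h1 (C1 := -C1) (C2 := C2) (C3 := -C3) rfl (by linarith) (by linarith)
    (by linarith) (by linarith)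
  obtain ⟨t3, z3⟩ := pers_term (F4 := ![a 0 * c3, a 1 * c2, a 2 * c1, a 3 * c0]) ha hsa
    h3 h2 h1 h0 (C1 := -C1) (C2 := -C2) (C3 := C3) rfl (by linarith) (by linarith)
    (by linarith) (by linarith)
  have ho := orient o hA hB p1 p2 p3 z0 z1 z2 z3
  rw [t0, t1, t2, t3]
  linarith

/-- (II) for sorted vectors -/
theorem II_sorted {a b : Fin 4 → ℝ} (ha : ∀ i, 0 < a i) (hb : ∀ i, 0 < b i)
    (hsa : a 0 + a 1 + a 2 + a 3 = 4) (hsb : b 0 + b 1 + b 2 + b 3 = 4)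
    (hA : Srt (fm1 a) (fm2 a) (fm3 a)) (hB : Srt (fm1 b) (fm2 b) (fm3 b)) :
    ∑ π : Equiv.Perm (Fin 4), persq 4 S4 (fun i => a i * b (π i)) ≤
      24 * br (rS (fm1 a) (fm2 a) (fm3 a) / 3) (rT (fm1 a) (fm2 a) (fm3 a))
        (rR (fm1 a) (fm2 a) (fm3 a) / 3) (rS (fm1 b) (fm2 b) (fm3 b) / 3)
        (rT (fm1 b) (fm2 b) (fm3 b)) (rR (fm1 b) (fm2 b) (fm3 b) / 3) := by
  rw [sum_perm4 (persq 4 S4) a b]
  have hsum := rB_sum (fm1 a) (fm2 a) (fm3 a) (fm1 b) (fm2 b) (fm3 b)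
  have o0 := four_terms ha hsa (hb 0) (hb 1) (hb 2) (hb 3)
    (C1 := fm1 b) (C2 := fm2 b) (C3 := fm3 b) (by linarith)
    (by unfold fm1; ring) (by unfold fm2; ring) (by unfold fm3; ring) 0 hA hB
    rfl rfl rfl
  have o1 := four_terms ha hsa (hb 0) (hb 1) (hb 3) (hb 2)
    (C1 := fm1 b) (C2 := fm3 b) (C3 := fm2 b) (by linarith)
    (by unfold fm1; ring) (by unfold fm3; ring) (by unfold fm2; ring) 1 hA hB
    rfl rfl rfl
  have o2 := four_terms ha hsa (hb 0) (hb 2) (hb 1) (hb 3)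
    (C1 := fm2 b) (C2 := fm1 b) (C3 := fm3 b) (by linarith)
    (by unfold fm2; ring) (by unfold fm1; ring) (by unfold fm3; ring) 2 hA hB
    rfl rfl rfl
  have o3 := four_terms ha hsa (hb 0) (hb 2) (hb 3) (hb 1)
    (C1 := fm2 b) (C2 := fm3 b) (C3 := fm1 b) (by linarith)
    (by unfold fm2; ring) (by unfold fm3; ring) (by unfold fm1; ring) 3 hA hB
    rfl rfl rfl
  have o4 := four_terms ha hsa (hb 0) (hb 3) (hb 1) (hb 2)
    (C1 := fm3 b) (C2 := fm1 b) (C3 := fm2 b) (by linarith)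
    (by unfold fm3; ring) (by unfold fm1; ring) (by unfold fm2; ring) 4 hA hB
    rfl rfl rfl
  have o5 := four_terms ha hsa (hb 0) (hb 3) (hb 2) (hb 1)
    (C1 := fm3 b) (C2 := fm2 b) (C3 := fm1 b) (by linarith)
    (by unfold fm3; ring) (by unfold fm2; ring) (by unfold fm1; ring) 5 hA hB
    rfl rfl rfl
  linarith

end Vale.Agent.H23.Potts4
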