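import Vale.Agent.H23.Potts4.PolyI
import Vale.Agent.H23.Potts4.IIReal

/-
The inequality (I) for four states in Fourier coordinates, from the polynomial certificate.
-/

namespace Vale.Agent.H23.Potts4

open Vale.Agent.H23.Potts

/-- `900 Z^5 g(w/Z)` -/
def rg9 (Z s t r : ℝ) : ℝ := (900 * Z ^ 2 + 156 * s) * t - Z * (83 * s ^ 2 + 135 * r)
/-- `90000 C_0` -/
def rc0 (Z s t r : ℝ) : ℝ :=
  -35739 * Z - 144711 * Z ^ 2 + 150750 * s + 356427 * Z ^ 3 - 395685 * (Z * s) + 1138527 * t -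
    179748 * Z ^ 4 + 216534 * (Z ^ 2 * s) - 33526 * s ^ 2 - 387486 * (Z * t) + 2622 * r
/-- `90000 C_1` -/
def rc1 (s t r : ℝ) : ℝ :=
  19062 * s - 264339 * t - 3832 * s ^ 2 - 69537 * r + 70500 * (s * t)
/-- the minorant -/
noncomputable def rm (Z s t r : ℝ) : ℝ :=
  rg9 Z s t r / 900 * (4 / Z - 3) + (Z - 1) ^ 2 * (rc0 Z s t r / 90000 + rc1 s t r / 90000 / Z)
/-- the term with denominator -/
def rE (Z s t r : ℝ) : ℝ := 10800 * rg9 Z s t r + 27 * ((Z - 1) ^ 2 * rc1 s t r)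
/-- the term without denominator -/
def rF (Z s t r : ℝ) : ℝ := -8100 * rg9 Z s t r + 27 * ((Z - 1) ^ 2 * rc0 Z s t r)

theorem rm_eq {Z : ℝ} (hZ : Z ≠ 0) (s t r : ℝ) :
    2430000 * rm Z s t r = rE Z s t r / Z + rF Z s t r := by
  unfold rm rE rF
  generalize rg9 Z s t r = g
  generalize rc0 Z s t r = c
  generalize rc1 s t r = c'
  field_simp
  ring

/-- real version of `qH` -/
def rH (x y z : ℝ) : ℝ :=
  2700 - 5616 * rS x y z + 2187 * rT x y z - 276 * rS x y z ^ 2 + 24273 * rR x y z -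
    32715 * (rS x y z * rT x y z) + 5608 * rS x y z ^ 3 + 97794 * rT x y z ^ 2 -
    23226 * (rS x y z * rR x y z)
/-- real version of `qPI` -/
def rPI (x y z u v w : ℝ) : ℝ :=
  (rV (-105399) 73113 (-1188) x y z + rV 73113 (-116018) 28593 x y z * rS u v w +
      rV (-1188) 28593 756054 x y z * rT u v w) *
      (rU x y z * rU u v w + (rU y z x * rU v w u + rU z x y * rU w u v)) +
    rV 27648 (-156294) 346221 x y z *
      (rU x y z * rW u v w + (rU y z x * rW v w u + rU z x y * rW w u v)) +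
    rV 27648 (-156294) 346221 u v w *
      (rW x y z * rU u v w + (rW y z x * rU v w u + rW z x y * rU w u v)) -
    600318 * (rW x y z * rW u v w + (rW y z x * rW v w u + rW z x y * rW w u v))
/-- real version of `qBI` -/
def rBI (x y z u v w : ℝ) : ℝ :=
  -4 * (rG x y z * rH u v w + rH x y z * rG u v w) + -12 * rPI x y z u v w

/-- Fourier coordinate 1 of the product -/
def rw1 (x y z u v w : ℝ) : ℝ := x + u + (y * w + z * v)
/-- Fourier coordinate 2 of the product -/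
def rw2 (x y z u v w : ℝ) : ℝ := y + v + (x * w + z * u)
/-- Fourier coordinate 3 of the product -/
def rw3 (x y z u v w : ℝ) : ℝ := z + w + (x * v + y * u)

/-- `s` of the product -/
def ps (x y z u v w : ℝ) : ℝ := rS (rw1 x y z u v w) (rw2 x y z u v w) (rw3 x y z u v w)
/-- `t` of the product -/
def pt (x y z u v w : ℝ) : ℝ := rT (rw1 x y z u v w) (rw2 x y z u v w) (rw3 x y z u v w)
/-- `r` of the product -/
def pr (x y z u v w : ℝ) : ℝ := rR (rw1 x y z u v w) (rw2 x y z u v w) (rw3 x y z u v w)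

/-- the minorant of the merged value -/
noncomputable def pm (x y z u v w : ℝ) : ℝ :=
  rm (rZ x y z u v w) (ps x y z u v w) (pt x y z u v w) (pr x y z u v w)
/-- the term with denominator -/
def pE (x y z u v w : ℝ) : ℝ :=
  rE (rZ x y z u v w) (ps x y z u v w) (pt x y z u v w) (pr x y z u v w)
/-- the term without denominator -/
def pF (x y z u v w : ℝ) : ℝ :=
  rF (rZ x y z u v w) (ps x y z u v w) (pt x y z u v w) (pr x y z u v w)

section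
variable {v : Fin 8 → ℝ} {n x y z m a b c M Z s t r : PE 8}

theorem ev_gI : PE.evR v (gI Z s t r) = rg9 (PE.evR v Z) (PE.evR v s) (PE.evR v t)
    (PE.evR v r) := by
  simp only [gI, ev_add, ev_neg, ev_zm, ev_sq, ev_mul, rg9]
  push_cast
  ring
theorem ev_c0I (hM : PE.evR v M = 1) : PE.evR v (c0I M Z s t r) =
    rc0 (PE.evR v Z) (PE.evR v s) (PE.evR v t) (PE.evR v r) := by
  simp only [c0I, ev_add, ev_neg, ev_zm, ev_sq, ev_mul, rc0, hM]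
  push_cast
  ring
theorem ev_c1I (hM : PE.evR v M = 1) : PE.evR v (c1I M s t r) =
    rc1 (PE.evR v s) (PE.evR v t) (PE.evR v r) := by
  simp only [c1I, ev_add, ev_neg, ev_zm, ev_sq, ev_mul, rc1, hM]
  push_cast
  ring
theorem ev_eI (hM : PE.evR v M = 1) : PE.evR v (eI M Z s t r) =
    rE (PE.evR v Z) (PE.evR v s) (PE.evR v t) (PE.evR v r) := by
  simp only [eI, ev_add, ev_sb, ev_zm, ev_sq, ev_mul, ev_gI, ev_c1I hM, rE, hM]
  push_cast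
  ring
theorem ev_fI (hM : PE.evR v M = 1) : PE.evR v (fI M Z s t r) =
    rF (PE.evR v Z) (PE.evR v s) (PE.evR v t) (PE.evR v r) := by
  simp only [fI, ev_add, ev_sb, ev_zm, ev_sq, ev_mul, ev_gI, ev_c0I hM, rF, hM]
  push_cast
  ring
theorem ev_qH (hn : PE.evR v n = 1) :
    PE.evR v (qH n x y z) = rH (PE.evR v x) (PE.evR v y) (PE.evR v z) := by
  simp only [qH, ev_add, ev_neg, ev_zm, ev_sq, ev_mul, ev_qS, ev_qT, ev_qR, rH, hn]
  push_cast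
  ring
theorem ev_qPI (hn : PE.evR v n = 1) (hm : PE.evR v m = 1) :
    PE.evR v (qPI n x y z m a b c) = rPI (PE.evR v x) (PE.evR v y) (PE.evR v z)
      (PE.evR v a) (PE.evR v b) (PE.evR v c) := by
  simp only [qPI, ev_add, ev_neg, ev_zm, ev_sq, ev_mul, ev_qS, ev_qT, ev_qU, ev_qW,
    ev_qV _ _ _ hn, ev_qV _ _ _ hm, rPI, hn, hm]
  push_cast
  ring
theorem ev_qBI (hn : PE.evR v n = 1) (hm : PE.evR v m = 1) :
    PE.evR v (qBI n x y z m a b c) = rBI (PE.evR v x) (PE.evR v y) (PE.evR v z)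
      (PE.evR v a) (PE.evR v b) (PE.evR v c) := by
  simp only [qBI, ev_add, ev_zm, ev_mul, ev_qG hn, ev_qH hn, ev_qG hm, ev_qH hm,
    ev_qPI hn hm, rBI]
  push_cast
  ring
theorem ev_qw1 (hn : PE.evR v n = 1) (hm : PE.evR v m = 1) :
    PE.evR v (qw1 n x y z m a b c) = rw1 (PE.evR v x) (PE.evR v y) (PE.evR v z)
      (PE.evR v a) (PE.evR v b) (PE.evR v c) := by
  simp only [qw1, ev_add, ev_mul, rw1, hn, hm]
  ring
theorem ev_qw2 (hn : PE.evR v n = 1) (hm : PE.evR v m = 1) :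
    PE.evR v (qw2 n x y z m a b c) = rw2 (PE.evR v x) (PE.evR v y) (PE.evR v z)
      (PE.evR v a) (PE.evR v b) (PE.evR v c) := by
  simp only [qw2, ev_add, ev_mul, rw2, hn, hm]
  ring
theorem ev_qw3 (hn : PE.evR v n = 1) (hm : PE.evR v m = 1) :
    PE.evR v (qw3 n x y z m a b c) = rw3 (PE.evR v x) (PE.evR v y) (PE.evR v z)
      (PE.evR v a) (PE.evR v b) (PE.evR v c) := by
  simp only [qw3, ev_add, ev_mul, rw3, hn, hm]
  ring
theorem ev_eIp (hn : PE.evR v n = 1) (hm : PE.evR v m = 1) :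
    PE.evR v (eIp n x y z m a b c) = pE (PE.evR v x) (PE.evR v y) (PE.evR v z)
      (PE.evR v a) (PE.evR v b) (PE.evR v c) := by
  have hM : PE.evR v (PE.mul n m) = 1 := by rw [ev_mul, hn, hm, one_mul]
  simp only [eIp, ev_eI hM, ev_qZ hn hm, ev_qS, ev_qT, ev_qR, ev_qw1 hn hm, ev_qw2 hn hm,
    ev_qw3 hn hm, pE, ps, pt, pr]
theorem ev_fIp (hn : PE.evR v n = 1) (hm : PE.evR v m = 1) :
    PE.evR v (fIp n x y z m a b c) = pF (PE.evR v x) (PE.evR v y) (PE.evR v z)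
      (PE.evR v a) (PE.evR v b) (PE.evR v c) := by
  have hM : PE.evR v (PE.mul n m) = 1 := by rw [ev_mul, hn, hm, one_mul]
  simp only [fIp, ev_fI hM, ev_qZ hn hm, ev_qS, ev_qT, ev_qR, ev_qw1 hn hm, ev_qw2 hn hm,
    ev_qw3 hn hm, pF, ps, pt, pr]

end

theorem I8_real {a1 a2 a3 b1 b2 b3 : ℝ}
    (h : 0 ≤ PE.evR ![a1, a2, a3, 1, b1, b2, b3, 1] I8)
    (z0 : 0 < rZ a1 a2 a3 b1 b2 b3) (z1 : 0 < rZ a1 a2 a3 b1 (-b2) (-b3))
    (z2 : 0 < rZ a1 a2 a3 (-b1) b2 (-b3)) (z3 : 0 < rZ a1 a2 a3 (-b1) (-b2) b3) :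
    -rBI a1 a2 a3 b1 b2 b3 / 2430000 ≤
      pm a1 a2 a3 b1 b2 b3 + pm a1 a2 a3 b1 (-b2) (-b3) + pm a1 a2 a3 (-b1) b2 (-b3) +
        pm a1 a2 a3 (-b1) (-b2) b3 := by
  have hn : PE.evR ![a1, a2, a3, 1, b1, b2, b3, 1] (PE.var 3) = 1 := rfl
  have hm : PE.evR ![a1, a2, a3, 1, b1, b2, b3, 1] (PE.var 7) = 1 := rfl
  have x1 : PE.evR ![a1, a2, a3, 1, b1, b2, b3, 1] (PE.var 0) = a1 := rfl
  have x2 : PE.evR ![a1, a2, a3, 1, b1, b2, b3, 1] (PE.var 1) = a2 := rfl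
  have x3 : PE.evR ![a1, a2, a3, 1, b1, b2, b3, 1] (PE.var 2) = a3 := rfl
  have y1 : PE.evR ![a1, a2, a3, 1, b1, b2, b3, 1] (PE.var 4) = b1 := rfl
  have y2 : PE.evR ![a1, a2, a3, 1, b1, b2, b3, 1] (PE.var 5) = b2 := rfl
  have y3 : PE.evR ![a1, a2, a3, 1, b1, b2, b3, 1] (PE.var 6) = b3 := rfl
  simp only [I8, qI, ev_mul, ev_add, ev_qBI hn hm, ev_qZ hn hm,
    ev_eIp hn hm, ev_fIp hn hm, ev_neg, x1, x2, x3, y1, y2, y3] at h
  have k0 : 2430000 * pm a1 a2 a3 b1 b2 b3 = pE a1 a2 a3 b1 b2 b3 / rZ a1 a2 a3 b1 b2 b3 +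
    pF a1 a2 a3 b1 b2 b3 := rm_eq z0.ne' _ _ _
  have k1 : 2430000 * pm a1 a2 a3 b1 (-b2) (-b3) = pE a1 a2 a3 b1 (-b2) (-b3) /
    rZ a1 a2 a3 b1 (-b2) (-b3) + pF a1 a2 a3 b1 (-b2) (-b3) := rm_eq z1.ne' _ _ _
  have k2 : 2430000 * pm a1 a2 a3 (-b1) b2 (-b3) = pE a1 a2 a3 (-b1) b2 (-b3) /
    rZ a1 a2 a3 (-b1) b2 (-b3) + pF a1 a2 a3 (-b1) b2 (-b3) := rm_eq z2.ne' _ _ _
  have k3 : 2430000 * pm a1 a2 a3 (-b1) (-b2) b3 = pE a1 a2 a3 (-b1) (-b2) b3 /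
    rZ a1 a2 a3 (-b1) (-b2) b3 + pF a1 a2 a3 (-b1) (-b2) b3 := rm_eq z3.ne' _ _ _
  generalize rBI a1 a2 a3 b1 b2 b3 = B at h ⊢
  generalize pm a1 a2 a3 b1 b2 b3 = p0 at k0 ⊢
  generalize pm a1 a2 a3 b1 (-b2) (-b3) = p1 at k1 ⊢
  generalize pm a1 a2 a3 (-b1) b2 (-b3) = p2 at k2 ⊢
  generalize pm a1 a2 a3 (-b1) (-b2) b3 = p3 at k3 ⊢
  generalize rZ a1 a2 a3 b1 b2 b3 = Z0 at h z0 k0
  generalize rZ a1 a2 a3 b1 (-b2) (-b3) = Z1 at h z1 k1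
  generalize rZ a1 a2 a3 (-b1) b2 (-b3) = Z2 at h z2 k2
  generalize rZ a1 a2 a3 (-b1) (-b2) b3 = Z3 at h z3 k3
  generalize pE a1 a2 a3 b1 b2 b3 = E0 at h k0
  generalize pE a1 a2 a3 b1 (-b2) (-b3) = E1 at h k1
  generalize pE a1 a2 a3 (-b1) b2 (-b3) = E2 at h k2
  generalize pE a1 a2 a3 (-b1) (-b2) b3 = E3 at h k3
  generalize pF a1 a2 a3 b1 b2 b3 = F0 at h k0
  generalize pF a1 a2 a3 b1 (-b2) (-b3) = F1 at h k1
  generalize pF a1 a2 a3 (-b1) b2 (-b3) = F2 at h k2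
  generalize pF a1 a2 a3 (-b1) (-b2) b3 = F3 at h k3
  have hD : 0 < Z0 * Z1 * (Z2 * Z3) := mul_pos (mul_pos z0 z1) (mul_pos z2 z3)
  have e1 : B + (F0 + F1 + (F2 + F3)) + (E0 / Z0 + E1 / Z1 + E2 / Z2 + E3 / Z3) =
      (Z0 * Z1 * (Z2 * Z3) * (B + (F0 + F1 + (F2 + F3))) +
        (Z0 * Z1 * (E2 * Z3 + E3 * Z2) + Z2 * Z3 * (E0 * Z1 + E1 * Z0))) /
        (Z0 * Z1 * (Z2 * Z3)) := by
    field_simp
    ring
  have e2 : 0 ≤ B + (F0 + F1 + (F2 + F3)) + (E0 / Z0 + E1 / Z1 + E2 / Z2 + E3 / Z3) := by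
    rw [e1]
    exact div_nonneg h hD.le
  linarith

end Vale.Agent.H23.Potts4
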