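import Vale.Agent.H23.Potts4.IIFinal
import Vale.Agent.H17.P154.Ferro4

/-
The subadditivity inequality for four states in the form used by the tree argument.
-/

namespace Vale.Agent.H23.Potts4

open Vale.Agent.H17.P154

theorem ineq4II : Ineq4II (1 / 200) := by
  intro a b ha hb ma mb
  refine (hII_br a b ha hb ma mb).trans (le_of_eq ?_)
  unfold br gam4 phi4
  ring

end Vale.Agent.H23.Potts4
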