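import Vale.Agent.H23.Potts4.PEHom

/-
The Kronecker check for large sizes: powers of two are computed by repeated squaring.
-/

namespace Vale.Agent.H23.Potts.PE

/-- square of a number -/
def nsq (x : ℕ) : ℕ := x * x

/-- `2 ^ m` by repeated squaring (`f` steps) -/
def p2 : ℕ → ℕ → ℕ
  | 0, m => 2 ^ m
  | f + 1, m => nsq (p2 f (m / 2)) * 2 ^ (m % 2)

theorem p2_eq (f : ℕ) : ∀ m, p2 f m = 2 ^ m := by
  induction f with
  | zero => intro m; rfl
  | succ f ih =>
    intro m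
    rw [p2, ih, nsq, ← pow_add, ← pow_add]
    congr 1
    omega

variable {k : ℕ}

/-- the kernel check -/
def chkB (e : PE k) (f b n : ℕ) : Bool :=
  (Nat.ble 1 b) && (Nat.ble 1 n) && ((List.finRange k).all (fun i => Nat.blt (dg i e) n)) &&
  (Nat.blt (mb e) (2 ^ (b - 1))) &&
  (match evZ (fun i : Fin k => (p2 f (b * n ^ (i : ℕ)) : ℕ)) e with
    | Int.ofNat N => Nat.beq (Nat.land N (2 ^ (b - 1) * (p2 f (b * n ^ k) - 1) / (2 ^ b - 1))) 0
    | Int.negSucc _ => false)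

theorem chkB_eq (e : PE k) (f b n : ℕ) (h : chkB e f b n = true) : chk e b n = true := by
  have h1 : (fun i : Fin k => ((p2 f (b * n ^ (i : ℕ)) : ℕ) : ℤ)) =
      fun i : Fin k => (((2 ^ b : ℕ) ^ (n ^ (i : ℕ)) : ℕ) : ℤ) := by
    funext i
    rw [p2_eq, pow_mul]
  unfold chkB at h
  rw [h1, p2_eq] at h
  exact h

/-- nonnegativity on the open cone for bihomogeneous expressions -/
theorem nonneg_of_chkB (e : PE k) (f b n : ℕ) (h : chkB e f b n = true) (v : Fin k → ℝ)
    (hv : ∀ i, 0 ≤ v i) : 0 ≤ evR v e :=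
  evR_nonneg e b n (chkB_eq e f b n h) v hv

end Vale.Agent.H23.Potts.PE
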