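import Vale.Agent.H23.Potts.Kron

/-
Substitution and bihomogeneity of polynomial expressions.
-/

namespace Vale.Agent.H23.Potts.PE

variable {k l : ℕ}

/-- substitution -/
def subst (σ : Fin k → PE l) : PE k → PE l
  | var i => σ i
  | cst z => cst z
  | add a b => add (subst σ a) (subst σ b)
  | mul a b => mul (subst σ a) (subst σ b)
  | neg a => neg (subst σ a)

theorem evR_subst (σ : Fin k → PE l) (v : Fin l → ℝ) (e : PE k) :
    evR v (subst σ e) = evR (fun i => evR v (σ i)) e := by
  induction e with
  | var i => rfl
  | cst z => rfl
  | add a b ha hb => simp only [subst, evR, ha, hb]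
  | mul a b ha hb => simp only [subst, evR, ha, hb]
  | neg a ha => simp only [subst, evR, ha]

/-- bidegree of a bihomogeneous expression; `s i` tells whether variable `i` is of the first
kind -/
def bideg (s : Fin k → Bool) : PE k → Option (ℕ × ℕ)
  | var i => if s i then some (1, 0) else some (0, 1)
  | cst _ => some (0, 0)
  | add a b =>
    match bideg s a, bideg s b with
    | some x, some y => if x = y then some x else none
    | _, _ => none
  | mul a b =>
    match bideg s a, bideg s b with
    | some x, some y => some (x.1 + y.1, x.2 + y.2)
    | _, _ => none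
  | neg a => bideg s a

theorem evR_scale (s : Fin k → Bool) (p q : ℝ) (v : Fin k → ℝ) (e : PE k) :
    ∀ i j, bideg s e = some (i, j) →
      evR (fun m => (if s m then p else q) * v m) e = p ^ i * q ^ j * evR v e := by
  induction e with
  | var m =>
    intro i j h
    simp only [bideg] at h
    by_cases hs : s m = true
    · rw [if_pos hs] at h
      simp only [Option.some.injEq, Prod.mk.injEq] at h
      obtain ⟨rfl, rfl⟩ := h
      simp [evR, hs]
    · rw [if_neg hs] at h
      simp only [Option.some.injEq, Prod.mk.injEq] at h
      obtain ⟨rfl, rfl⟩ := h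
      simp [evR, hs]
  | cst z =>
    intro i j h
    simp only [bideg, Option.some.injEq, Prod.mk.injEq] at h
    obtain ⟨rfl, rfl⟩ := h
    simp [evR]
  | add a b ha hb =>
    intro i j h
    simp only [bideg] at h
    rcases hx : bideg s a with _ | x
    · rw [hx] at h; simp at h
    rcases hy : bideg s b with _ | y
    · rw [hx, hy] at h; simp at h
    rw [hx, hy] at h
    simp only at h
    by_cases hxy : x = y
    · rw [if_pos hxy, Option.some.injEq] at h
      subst hxy
      subst h
      rw [evR, evR, ha i j hx, hb i j hy]
      ring
    · rw [if_neg hxy] at h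
      simp at h
  | mul a b ha hb =>
    intro i j h
    simp only [bideg] at h
    rcases hx : bideg s a with _ | x
    · rw [hx] at h; simp at h
    rcases hy : bideg s b with _ | y
    · rw [hx, hy] at h; simp at h
    rw [hx, hy] at h
    simp only [Option.some.injEq, Prod.mk.injEq] at h
    obtain ⟨rfl, rfl⟩ := h
    rw [evR, evR, ha x.1 x.2 hx, hb y.1 y.2 hy]
    ring
  | neg a ha =>
    intro i j h
    simp only [bideg] at h
    rw [evR, evR, ha i j h]
    ring

end Vale.Agent.H23.Potts.PE
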