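import Vale.Agent.H23.Potts4.KronBig

/-
The polynomial of the subadditivity inequality (II) for four states.
-/

namespace Vale.Agent.H23.Potts4

open Vale.Agent.H23.Potts

section
variable {k : ℕ}

/-- difference -/
def sb (x y : PE k) : PE k := PE.add x (PE.neg y)
/-- square -/
def sq (x : PE k) : PE k := PE.mul x x
/-- integer multiple -/
def zm (z : ℤ) (x : PE k) : PE k := PE.mul (PE.cst z) x

/-- sum of squares -/
def qS (x y z : PE k) : PE k := PE.add (sq x) (PE.add (sq y) (sq z))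
/-- product -/
def qT (x y z : PE k) : PE k := PE.mul x (PE.mul y z)
/-- quartic -/
def qR (x y z : PE k) : PE k :=
  PE.add (PE.mul (sq x) (sq y)) (PE.mul (PE.add (sq x) (sq y)) (sq z))

/-- `900 n^6 g` -/
def qG (n x y z : PE k) : PE k :=
  PE.add (PE.mul (PE.mul n (PE.add (zm 900 (sq n)) (zm 156 (qS x y z)))) (qT x y z))
    (PE.neg (PE.mul (sq n) (PE.add (zm 83 (sq (qS x y z))) (zm 135 (qR x y z)))))

/-- `900 n^6 kappa` -/
def qK (n x y z : PE k) : PE k :=
  PE.add
    (PE.add (PE.mul (qS x y z) (PE.add (zm 1200 (sq (sq n)))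
      (PE.add (zm 105 (PE.mul n (qT x y z))) (zm 276 (sq (qS x y z))))))
      (zm 1548 (sq (qT x y z))))
    (PE.neg (PE.add (PE.mul (sq n) (PE.add (PE.add (zm 900 (PE.mul n (qT x y z)))
      (zm 299 (sq (qS x y z)))) (zm 120 (qR x y z))))
      (zm 950 (PE.mul (qS x y z) (qR x y z)))))

/-- `3 n^2 f_0` -/
def qU (x y z : PE k) : PE k := sb (zm 3 (sq x)) (qS x y z)

/-- `3 n^4 f_2` -/
def qW (x y z : PE k) : PE k := sb (zm 3 (PE.mul (sq y) (sq z))) (qR x y z)

/-- `c0 n^4 + c1 n^2 s + c2 n t` -/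
def qV (c0 c1 c2 : ℤ) (n x y z : PE k) : PE k :=
  PE.add (PE.mul (sq n) (PE.add (zm c0 (sq n)) (zm c1 (qS x y z))))
    (zm c2 (PE.mul n (qT x y z)))

/-- the correction -/
def qP (n x y z m u v w : PE k) : PE k :=
  PE.add
    (PE.add
      (PE.mul
        (PE.add (PE.mul (sq m) (PE.add (PE.mul (qV (-90000) 29070 20556 n x y z) (sq m))
          (PE.mul (qV 29070 (-15638) (-131313) n x y z) (qS u v w))))
          (PE.mul (PE.mul (qV 20556 (-131313) 931806 n x y z) m) (qT u v w)))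
        (PE.add (PE.mul (qU x y z) (qU u v w))
          (PE.add (PE.mul (qU y z x) (qU v w u)) (PE.mul (qU z x y) (qU w u v)))))
      (PE.mul (PE.mul (qV 333 (-56400) 89838 n x y z) (sq m))
        (PE.add (PE.mul (qU x y z) (qW u v w))
          (PE.add (PE.mul (qU y z x) (qW v w u)) (PE.mul (qU z x y) (qW w u v))))))
    (PE.add
      (PE.mul (PE.mul (sq n) (qV 333 (-56400) 89838 m u v w))
        (PE.add (PE.mul (qW x y z) (qU u v w))
          (PE.add (PE.mul (qW y z x) (qU v w u)) (PE.mul (qW z x y) (qU w u v)))))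
      (PE.neg (PE.mul (PE.mul (zm 213039 (sq n)) (sq m))
        (PE.add (PE.mul (qW x y z) (qW u v w))
          (PE.add (PE.mul (qW y z x) (qW v w u)) (PE.mul (qW z x y) (qW w u v)))))))

/-- `810000 (n m)^6` times the bracket -/
def qB (n x y z m u v w : PE k) : PE k :=
  PE.add
    (sb
      (sb (zm 270000 (PE.mul (PE.mul (sq (sq n)) (sq (sq m)))
          (PE.add (PE.mul (qS x y z) (sq m)) (PE.mul (qS u v w) (sq n)))))
        (PE.add (PE.mul (qG n x y z) (qK m u v w)) (PE.mul (qK n x y z) (qG m u v w))))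
      (zm 150 (PE.mul (PE.mul (PE.mul (sq n) (qS x y z)) (PE.mul (sq m) (qS u v w)))
        (PE.add (PE.mul (qS x y z) (sq m)) (PE.mul (qS u v w) (sq n))))))
    (qP n x y z m u v w)

/-- the mean of the product -/
def qZ (n x y z m u v w : PE k) : PE k :=
  PE.add (PE.add (PE.mul n m) (PE.mul x u)) (PE.add (PE.mul y v) (PE.mul z w))

/-- the squares of the Fourier coefficients of the product -/
def qQ (n x y z m u v w : PE k) : PE k :=
  PE.add (sq (PE.add (PE.add (PE.mul x m) (PE.mul n u)) (PE.add (PE.mul y w) (PE.mul z v))))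
    (PE.add (sq (PE.add (PE.add (PE.mul y m) (PE.mul n v)) (PE.add (PE.mul x w) (PE.mul z u))))
      (sq (PE.add (PE.add (PE.mul z m) (PE.mul n w)) (PE.add (PE.mul x v) (PE.mul y u)))))

/-- the polynomial of (II) -/
def qII (n x y z m u v w : PE k) : PE k :=
  let Z0 := qZ n x y z m u v w
  let Z1 := qZ n x y z m u (PE.neg v) (PE.neg w)
  let Z2 := qZ n x y z m (PE.neg u) v (PE.neg w)
  let Z3 := qZ n x y z m (PE.neg u) (PE.neg v) w
  let Q0 := qQ n x y z m u v w
  let Q1 := qQ n x y z m u (PE.neg v) (PE.neg w)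
  let Q2 := qQ n x y z m (PE.neg u) v (PE.neg w)
  let Q3 := qQ n x y z m (PE.neg u) (PE.neg v) w
  sb (PE.mul (PE.mul (PE.mul Z0 Z1) (PE.mul Z2 Z3)) (qB n x y z m u v w))
    (zm 67500 (PE.mul (PE.mul n (sq (sq n))) (PE.mul (PE.mul m (sq (sq m)))
      (PE.add (PE.mul (PE.mul Z0 Z1) (PE.add (PE.mul Q2 Z3) (PE.mul Q3 Z2)))
        (PE.mul (PE.mul Z2 Z3) (PE.add (PE.mul Q0 Z1) (PE.mul Q1 Z0)))))))

end

/-- the polynomial in the eight variables -/
def II8 : PE 8 := qII (PE.var 3) (PE.var 0) (PE.var 1) (PE.var 2)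
  (PE.var 7) (PE.var 4) (PE.var 5) (PE.var 6)

/-- which variables are of the first kind -/
def kind8 (i : Fin 8) : Bool := i.val < 4

theorem II8_bideg : PE.bideg kind8 II8 = some (10, 10) := by decide +kernel

section
/-- P -/
def vP : PE 6 := PE.var 0
/-- Q -/
def vQ : PE 6 := PE.var 1
/-- R -/
def vR : PE 6 := PE.var 2
/-- P' -/
def wP : PE 6 := PE.var 3
/-- Q' -/
def wQ : PE 6 := PE.var 4
/-- R' -/
def wR : PE 6 := PE.var 5

/-- Fourier coordinate 1 of the sorted vector -/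
def l1 (p q r : PE 6) : PE 6 := PE.add p (PE.add q r)
/-- Fourier coordinate 2 of the sorted vector -/
def l2 (p r : PE 6) : PE 6 := PE.add p r
/-- Fourier coordinate 3 of the sorted vector -/
def l3 (p r : PE 6) : PE 6 := sb p r
/-- mean of the sorted vector -/
def l0 (p q r : PE 6) : PE 6 := PE.add (PE.add p (PE.cst 1)) (PE.add q (zm 3 r))

/-- the six substitutions -/
def sbst (o : Fin 6) : Fin 8 → PE 6 :=
  let c1 := l1 wP wQ wR
  let c2 := l2 wP wR
  let c3 := l3 wP wR
  let d : Fin 3 → PE 6 :=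
    match o with
    | 0 => ![c1, c2, c3]
    | 1 => ![c1, c3, c2]
    | 2 => ![c2, c1, c3]
    | 3 => ![c2, c3, c1]
    | 4 => ![c3, c1, c2]
    | 5 => ![c3, c2, c1]
  ![l1 vP vQ vR, l2 vP vR, l3 vP vR, l0 vP vQ vR, d 0, d 1, d 2, l0 wP wQ wR]

end

end Vale.Agent.H23.Potts4
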